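import Mathlib

/-! A lemma on two plane curves through the origin whose coordinate coincidences agree. -/

namespace Vale.Agent.Lib.P084.Dim3N

open Set

/-- The first time a continuous function goes below a level. -/
lemma first_hit {φ : ℝ → ℝ} (hφ : ContinuousOn φ (Icc 0 1)) {c c' : ℝ} (h1 : c < c')
    (h2 : c' < φ 0) (h3 : φ 1 ≤ c) :
    ∃ u₁ ∈ Icc (0 : ℝ) 1, φ u₁ = c' ∧ ∀ u ∈ Icc 0 u₁, c < φ u := by
  have hK : IsClosed (Icc (0 : ℝ) 1 ∩ φ ⁻¹' Iic c) :=
    hφ.preimage_isClosed_of_isClosed isClosed_Icc isClosed_Iic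
  have hne : (Icc (0 : ℝ) 1 ∩ φ ⁻¹' Iic c).Nonempty := ⟨1, ⟨by norm_num, by norm_num⟩, h3⟩
  have hbdd : BddBelow (Icc (0 : ℝ) 1 ∩ φ ⁻¹' Iic c) := ⟨0, fun x hx => hx.1.1⟩
  have hu₀ := hK.csInf_mem hne hbdd
  obtain ⟨u₀, hdef⟩ : ∃ u₀, u₀ = sInf (Icc (0 : ℝ) 1 ∩ φ ⁻¹' Iic c) := ⟨_, rfl⟩
  rw [← hdef] at hu₀
  have hlow : ∀ u ∈ Ico 0 u₀, c < φ u := by
    intro u hu
    by_contra hcon
    have hmem : u ∈ Icc (0 : ℝ) 1 ∩ φ ⁻¹' Iic c :=
      ⟨⟨hu.1, by linarith [hu₀.1.2, hu.2]⟩, not_lt.1 hcon⟩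
    have := csInf_le hbdd hmem
    rw [← hdef] at this
    exact absurd this (not_le.2 hu.2)
  have hsub : Icc 0 u₀ ⊆ Icc 0 1 := Icc_subset_Icc_right hu₀.1.2
  have hval0 : φ u₀ ≤ c := hu₀.2
  obtain ⟨u₁, hu₁, hval⟩ := intermediate_value_Icc' hu₀.1.1 (hφ.mono hsub)
    (⟨by linarith, h2.le⟩ : c' ∈ Icc (φ u₀) (φ 0))
  have hlt : u₁ < u₀ := by
    refine lt_of_le_of_ne hu₁.2 ?_
    intro he
    rw [he] at hval
    linarith
  exact ⟨u₁, hsub hu₁, hval, fun u hu => hlow u ⟨hu.1, by linarith [hu.2]⟩⟩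

/-- A continuous nonvanishing function on a preconnected set keeps its sign. -/
lemma pos_of_connected {S : Set ℝ} (hS : IsPreconnected S) {g : ℝ → ℝ} (hg : ContinuousOn g S)
    (hne : ∀ x ∈ S, g x ≠ 0) {x y : ℝ} (hx : x ∈ S) (hy : y ∈ S) (h : 0 < g x) : 0 < g y := by
  by_contra hcon
  obtain ⟨z, hz, hz0⟩ := hS.intermediate_value hy hx hg (⟨not_lt.1 hcon, h.le⟩ : (0 : ℝ) ∈ Icc _ _)
  exact hne z hz hz0

/-- The sign beyond the common range of the first coordinates. -/
lemma beyond {I I' : Set ℝ} (hI : Convex ℝ I) (hI' : IsPreconnected I') {a b a' b' : ℝ → ℝ}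
    (ha : ContinuousOn a I) (hb : ContinuousOn b I) (hb' : ContinuousOn b' I')
    (hiff : ∀ s ∈ I, ∀ r ∈ I', a s = a' r ↔ b s = b' r)
    {s s₁ r₂ α₂ α' σ : ℝ} (hs : s ∈ I) (hs₁ : s₁ ∈ I) (hr₂ : r₂ ∈ I')
    (h1 : a' r₂ = α₂) (h2 : a s₁ = α₂) (h3 : α₂ < α') (h4 : α' < a s) (h5 : ∀ r ∈ I', a' r < a s)
    (h6 : ∀ t ∈ I, a t = α' → 0 < σ * (b t - b' r₂)) :
    ∀ r ∈ I', 0 < σ * (b s - b' r) := by
  have hψ : ∀ u ∈ Icc (0 : ℝ) 1, s + u • (s₁ - s) ∈ I := fun u hu => hI.add_smul_sub_mem hs hs₁ hu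
  have hψc : Continuous (fun u : ℝ => s + u • (s₁ - s)) := by fun_prop
  have hφ : ContinuousOn (fun u : ℝ => a (s + u • (s₁ - s))) (Icc 0 1) :=
    ha.comp hψc.continuousOn hψ
  obtain ⟨u₁, hu₁, hval, hgt⟩ := first_hit hφ h3 (by simpa using h4)
    (by simp [h2])
  have hp := h6 _ (hψ u₁ hu₁) hval
  have hsub : Icc 0 u₁ ⊆ Icc 0 1 := Icc_subset_Icc_right hu₁.2
  have hg : ContinuousOn (fun u : ℝ => σ * (b (s + u • (s₁ - s)) - b' r₂)) (Icc 0 u₁) := by
    refine continuousOn_const.mul (ContinuousOn.sub ?_ continuousOn_const)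
    exact hb.comp hψc.continuousOn (fun u hu => hψ u (hsub hu))
  have hσ : σ ≠ 0 := by
    rintro rfl
    simp at hp
  have hw : 0 < σ * (b s - b' r₂) := by
    have := pos_of_connected (S := Icc 0 u₁) isPreconnected_Icc hg ?_
      (right_mem_Icc.2 hu₁.1) (left_mem_Icc.2 hu₁.1) hp
    · simpa using this
    · intro u hu h0
      have h7 : b (s + u • (s₁ - s)) - b' r₂ = 0 := (mul_eq_zero.1 h0).resolve_left hσ
      have h8 := (hiff _ (hψ u (hsub hu)) r₂ hr₂).2 (by linarith)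
      have h9 := hgt u hu
      rw [h8, h1] at h9
      exact lt_irrefl _ h9
  intro r hr
  refine pos_of_connected (g := fun r => σ * (b s - b' r)) hI' ?_ ?_ hr₂ hr hw
  · exact continuousOn_const.mul (continuousOn_const.sub hb')
  · intro r' hr' h0
    have h7 : b s - b' r' = 0 := (mul_eq_zero.1 h0).resolve_left hσ
    have h8 := (hiff s hs r' hr').2 (by linarith)
    have h9 := h5 r' hr'
    rw [h8] at h9
    exact lt_irrefl _ h9

/-- The pair sign beyond the common range, both sides. -/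
lemma beyond2 {I I' : Set ℝ} (hI : Convex ℝ I) (hI' : IsPreconnected I') {a b a' b' h : ℝ → ℝ}
    (ha : ContinuousOn a I) (hb : ContinuousOn b I) (ha' : ContinuousOn a' I')
    (hb' : ContinuousOn b' I')
    (hiff : ∀ s ∈ I, ∀ r ∈ I', a s = a' r ↔ b s = b' r)
    {u v σ : ℝ} (huv : u < v)
    (hmono : ∀ α ∈ Icc u v, ∀ β ∈ Icc u v, α < β → 0 < σ * (h β - h α))
    (hl : ∀ s ∈ I, a s ∈ Icc u v → b s = h (a s)) (hr : ∀ r ∈ I', a' r ∈ Icc u v → b' r = h (a' r))
    (hsa : ∀ α ∈ Icc u v, ∃ s ∈ I, a s = α) (hsa' : ∀ α ∈ Icc u v, ∃ r ∈ I', a' r = α)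
    {s : ℝ} (hs : s ∈ I)
    (hup : v < a s → ∀ r ∈ I', a' r < a s) (hdown : a s < u → ∀ r ∈ I', a s < a' r)
    (hout : a s ∉ Icc u v) :
    ∀ r ∈ I', a s ≠ a' r → 0 < σ * ((a s - a' r) * (b s - b' r)) := by
  have hu : u ∈ Icc u v := ⟨le_refl _, huv.le⟩
  have hv : v ∈ Icc u v := ⟨huv.le, le_refl _⟩
  have hcase : a s < u ∨ v < a s := by
    by_contra hcon
    push Not at hcon
    exact hout ⟨hcon.1, hcon.2⟩
  rcases hcase with hlt | hgt
  · -- below
    obtain ⟨s₁, hs₁, hs₁v⟩ := hsa v hv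
    obtain ⟨r₂, hr₂, hr₂v⟩ := hsa' v hv
    have hiff' : ∀ s ∈ I, ∀ r ∈ I', (fun t => - a t) s = (fun t => - a' t) r ↔ b s = b' r := by
      intro s hs r hr
      simp only [neg_inj]
      exact hiff s hs r hr
    have key := beyond (σ := -σ) hI hI' (a := fun t => - a t) (a' := fun t => - a' t) ha.neg hb hb'
      hiff' hs hs₁ hr₂ (α₂ := - v) (α' := - u)
      (by simp [hr₂v]) (by simp [hs₁v]) (by linarith) (by simp; linarith)
      (by
        intro r hr
        have := hdown hlt r hr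
        show - a' r < - a s
        linarith)
      (by
        intro t ht htv
        have htu : a t = u := by
          simp only [neg_inj] at htv
          exact htv
        rw [hl t ht (by rw [htu]; exact hu), htu, hr r₂ hr₂ (by rw [hr₂v]; exact hv), hr₂v]
        have := hmono u hu v hv huv
        linarith)
    intro r hr _
    have h1 := key r hr
    have h2 := hdown hlt r hr
    have e : σ * ((a s - a' r) * (b s - b' r)) = (a' r - a s) * (-σ * (b s - b' r)) := by ring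
    rw [e]
    exact mul_pos (by linarith) h1
  · -- above
    obtain ⟨s₁, hs₁, hs₁u⟩ := hsa u hu
    obtain ⟨r₂, hr₂, hr₂u⟩ := hsa' u hu
    have key := beyond (σ := σ) hI hI' ha hb hb' hiff hs hs₁ hr₂ (α₂ := u) (α' := v)
      hr₂u hs₁u huv hgt (hup hgt)
      (by
        intro t ht htv
        rw [hl t ht (by rw [htv]; exact hv), htv, hr r₂ hr₂ (by rw [hr₂u]; exact hu), hr₂u]
        exact hmono u hu v hv huv)
    intro r hr _
    have h1 := key r hr
    have h2 := hup hgt r hr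
    have e : σ * ((a s - a' r) * (b s - b' r)) = (a s - a' r) * (σ * (b s - b' r)) := by ring
    rw [e]
    exact mul_pos (by linarith) h1

/-- Continuity of a factor through a map on a compact set. -/
lemma continuousOn_of_factor {K U : Set ℝ} (hK : IsCompact K) {a b h : ℝ → ℝ}
    (ha : ContinuousOn a K) (hb : ContinuousOn b K) (hsurj : ∀ α ∈ U, ∃ s ∈ K, a s = α)
    (hmaps : ∀ s ∈ K, a s ∈ U) (hfac : ∀ s ∈ K, b s = h (a s)) : ContinuousOn h U := by
  rw [continuousOn_iff_isClosed]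
  intro C hC
  have h1 : IsClosed (K ∩ b ⁻¹' C) := hb.preimage_isClosed_of_isClosed hK.isClosed hC
  have h2 : IsCompact (K ∩ b ⁻¹' C) := hK.of_isClosed_subset h1 inter_subset_left
  have h3 : IsCompact (a '' (K ∩ b ⁻¹' C)) := h2.image_of_continuousOn (ha.mono inter_subset_left)
  refine ⟨_, h3.isClosed, ?_⟩
  ext α
  constructor
  · rintro ⟨h4, h5⟩
    obtain ⟨s, hs, rfl⟩ := hsurj α h5
    refine ⟨⟨s, ⟨hs, ?_⟩, rfl⟩, h5⟩
    simp only [mem_preimage] at h4 ⊢
    rwa [hfac s hs]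
  · rintro ⟨⟨s, ⟨hs, h4⟩, rfl⟩, h5⟩
    refine ⟨?_, h5⟩
    simp only [mem_preimage] at h4 ⊢
    rwa [← hfac s hs]

/-- Two curves with no common nonzero value lie on opposite sides of zero. -/
lemma opposite {I I' : Set ℝ} (hI : IsPreconnected I) (hI' : IsPreconnected I') {f f' : ℝ → ℝ}
    (hf : ContinuousOn f I) (hf' : ContinuousOn f' I') {s₀ r₀ : ℝ} (hs₀ : s₀ ∈ I) (hr₀ : r₀ ∈ I')
    (h0 : f s₀ = 0) (h0' : f' r₀ = 0) (hne : ∃ s ∈ I, f s ≠ 0) (hne' : ∃ r ∈ I', f' r ≠ 0)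
    (hco : ∀ s ∈ I, ∀ r ∈ I', f s = f' r → f s = 0) :
    ∃ τ : ℝ, (τ = 1 ∨ τ = -1) ∧ ∀ s ∈ I, ∀ r ∈ I', f s ≠ f' r → 0 < τ * (f s - f' r) := by
  have hP : ∀ s ∈ I, ∀ r ∈ I', ¬ (0 < f s ∧ 0 < f' r) := by
    rintro s hs r hr ⟨h1, h2⟩
    obtain ⟨s', hs', hv⟩ := hI.intermediate_value hs₀ hs hf
      (⟨by rw [h0]; exact (lt_min h1 h2).le, min_le_left _ _⟩ : min (f s) (f' r) ∈ Icc _ _)
    obtain ⟨r', hr', hv'⟩ := hI'.intermediate_value hr₀ hr hf'
      (⟨by rw [h0']; exact (lt_min h1 h2).le, min_le_right _ _⟩ : min (f s) (f' r) ∈ Icc _ _)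
    have := hco s' hs' r' hr' (by rw [hv, hv'])
    rw [hv] at this
    exact absurd this (lt_min h1 h2).ne'
  have hN : ∀ s ∈ I, ∀ r ∈ I', ¬ (f s < 0 ∧ f' r < 0) := by
    rintro s hs r hr ⟨h1, h2⟩
    obtain ⟨s', hs', hv⟩ := hI.intermediate_value hs hs₀ hf
      (⟨le_max_left _ _, by rw [h0]; exact (max_lt h1 h2).le⟩ : max (f s) (f' r) ∈ Icc _ _)
    obtain ⟨r', hr', hv'⟩ := hI'.intermediate_value hr hr₀ hf'
      (⟨le_max_right _ _, by rw [h0']; exact (max_lt h1 h2).le⟩ : max (f s) (f' r) ∈ Icc _ _)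
    have := hco s' hs' r' hr' (by rw [hv, hv'])
    rw [hv] at this
    exact absurd this (max_lt h1 h2).ne
  obtain ⟨spos, hspos, hspos'⟩ := hne
  obtain ⟨rpos, hrpos, hrpos'⟩ := hne'
  rcases lt_or_gt_of_ne hspos' with hneg | hpos
  · -- `f` takes a negative value
    have hr1 : ∀ r ∈ I', 0 ≤ f' r := fun r hr => not_lt.1 fun h => hN spos hspos r hr ⟨hneg, h⟩
    have hr2 : 0 < f' rpos := lt_of_le_of_ne (hr1 rpos hrpos) hrpos'.symm
    have hs1 : ∀ s ∈ I, f s ≤ 0 := fun s hs => not_lt.1 fun h => hP s hs rpos hrpos ⟨h, hr2⟩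
    refine ⟨-1, Or.inr rfl, fun s hs r hr hne => ?_⟩
    have h1 := hs1 s hs
    have h2 := hr1 r hr
    have h3 : f s - f' r < 0 := by
      refine lt_of_le_of_ne (by linarith) ?_
      intro h
      exact hne (by linarith)
    linarith
  · have hr1 : ∀ r ∈ I', f' r ≤ 0 := fun r hr => not_lt.1 fun h => hP spos hspos r hr ⟨hpos, h⟩
    have hr2 : f' rpos < 0 := lt_of_le_of_ne (hr1 rpos hrpos) hrpos'
    have hs1 : ∀ s ∈ I, 0 ≤ f s := fun s hs => not_lt.1 fun h => hN s hs rpos hrpos ⟨h, hr2⟩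
    refine ⟨1, Or.inl rfl, fun s hs r hr hne => ?_⟩
    have h1 := hs1 s hs
    have h2 := hr1 r hr
    have h3 : 0 < f s - f' r := by
      refine lt_of_le_of_ne (by linarith) ?_
      intro h
      exact hne (by linarith)
    linarith

/-- **Box lemma.** Two plane curves through the origin, not constant, such that the first
coordinates agree exactly when the second coordinates agree: the product of the differences has a
fixed sign. -/
theorem box_lemma {I I' : Set ℝ} (hI : Convex ℝ I) (hI' : Convex ℝ I') (hIc : IsCompact I)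
    (hIc' : IsCompact I') {a b a' b' : ℝ → ℝ} (ha : ContinuousOn a I) (hb : ContinuousOn b I)
    (ha' : ContinuousOn a' I') (hb' : ContinuousOn b' I') {s₀ r₀ : ℝ} (hs₀ : s₀ ∈ I)
    (hr₀ : r₀ ∈ I') (h0 : a s₀ = 0) (h0b : b s₀ = 0) (h1 : a' r₀ = 0) (h1b : b' r₀ = 0)
    (hnc : ∃ s ∈ I, a s ≠ 0 ∨ b s ≠ 0) (hnc' : ∃ r ∈ I', a' r ≠ 0 ∨ b' r ≠ 0)
    (hiff : ∀ s ∈ I, ∀ r ∈ I', a s = a' r ↔ b s = b' r) :
    ∃ σ : ℝ, (σ = 1 ∨ σ = -1) ∧
      ∀ s ∈ I, ∀ r ∈ I', a s ≠ a' r → 0 < σ * ((a s - a' r) * (b s - b' r)) := by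
  have hIp := hI.isPreconnected
  have hIp' := hI'.isPreconnected
  have hiffs : ∀ r ∈ I', ∀ s ∈ I, a' r = a s ↔ b' r = b s := by
    intro r hr s hs
    rw [eq_comm (a := a' r), eq_comm (a := b' r)]
    exact hiff s hs r hr
  -- nondegeneracy
  have hA : ∃ s ∈ I, a s ≠ 0 := by
    obtain ⟨s, hs, h | h⟩ := hnc
    · exact ⟨s, hs, h⟩
    · refine ⟨s, hs, fun h2 => h ?_⟩
      have := (hiff s hs r₀ hr₀).1 (by rw [h2, h1])
      rw [this, h1b]
  have hA' : ∃ r ∈ I', a' r ≠ 0 := by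
    obtain ⟨r, hr, h | h⟩ := hnc'
    · exact ⟨r, hr, h⟩
    · refine ⟨r, hr, fun h2 => h ?_⟩
      have := (hiff s₀ hs₀ r hr).1 (by rw [h2, h0])
      rw [← this, h0b]
  by_cases hU : ∃ s₁ ∈ I, ∃ r₁ ∈ I', a s₁ = a' r₁ ∧ a s₁ ≠ 0
  · -- common nondegenerate range
    obtain ⟨s₁, hs₁, r₁, hr₁, he, hne⟩ := hU
    obtain ⟨smin, hsmin, hsmin'⟩ := hIc.exists_isMinOn ⟨s₀, hs₀⟩ ha
    obtain ⟨smax, hsmax, hsmax'⟩ := hIc.exists_isMaxOn ⟨s₀, hs₀⟩ ha
    obtain ⟨rmin, hrmin, hrmin'⟩ := hIc'.exists_isMinOn ⟨r₀, hr₀⟩ ha'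
    obtain ⟨rmax, hrmax, hrmax'⟩ := hIc'.exists_isMaxOn ⟨r₀, hr₀⟩ ha'
    have hsl : ∀ s ∈ I, a smin ≤ a s := fun s hs => hsmin' hs
    have hsg : ∀ s ∈ I, a s ≤ a smax := fun s hs => hsmax' hs
    have hrl : ∀ r ∈ I', a' rmin ≤ a' r := fun r hr => hrmin' hr
    have hrg : ∀ r ∈ I', a' r ≤ a' rmax := fun r hr => hrmax' hr
    obtain ⟨u, hu⟩ : ∃ u, u = max (a smin) (a' rmin) := ⟨_, rfl⟩
    obtain ⟨v, hv⟩ : ∃ v, v = min (a smax) (a' rmax) := ⟨_, rfl⟩
    have hu0 : u ≤ 0 := by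
      rw [hu]
      exact max_le (by rw [← h0]; exact hsl s₀ hs₀) (by rw [← h1]; exact hrl r₀ hr₀)
    have hu1 : u ≤ a s₁ := by
      rw [hu]
      exact max_le (hsl s₁ hs₁) (by rw [he]; exact hrl r₁ hr₁)
    have hv0 : 0 ≤ v := by
      rw [hv]
      exact le_min (by rw [← h0]; exact hsg s₀ hs₀) (by rw [← h1]; exact hrg r₀ hr₀)
    have hv1 : a s₁ ≤ v := by
      rw [hv]
      exact le_min (hsg s₁ hs₁) (by rw [he]; exact hrg r₁ hr₁)
    have huv : u < v := by
      rcases lt_or_gt_of_ne hne with h | h <;> linarith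
    have hsa : ∀ α ∈ Icc u v, ∃ s ∈ I, a s = α := by
      intro α hα
      have h2 : a smin ≤ α := (le_max_left _ _).trans (hu ▸ hα.1)
      have h3 : α ≤ a smax := (hv ▸ hα.2).trans (min_le_left _ _)
      obtain ⟨s, hs, hs'⟩ := hIp.intermediate_value hsmin hsmax ha ⟨h2, h3⟩
      exact ⟨s, hs, hs'⟩
    have hsa' : ∀ α ∈ Icc u v, ∃ r ∈ I', a' r = α := by
      intro α hα
      have h2 : a' rmin ≤ α := (le_max_right _ _).trans (hu ▸ hα.1)
      have h3 : α ≤ a' rmax := (hv ▸ hα.2).trans (min_le_right _ _)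
      obtain ⟨r, hr, hr'⟩ := hIp'.intermediate_value hrmin hrmax ha' ⟨h2, h3⟩
      exact ⟨r, hr, hr'⟩
    choose! sel hsel hsel' using hsa
    have hl : ∀ s ∈ I, a s ∈ Icc u v → b s = b (sel (a s)) := by
      intro s hs hα
      obtain ⟨r, hr, hr'⟩ := hsa' _ hα
      rw [(hiff s hs r hr).1 hr'.symm,
        (hiff _ (hsel _ hα) r hr).1 ((hsel' _ hα).trans hr'.symm)]
    have hr : ∀ r ∈ I', a' r ∈ Icc u v → b' r = b (sel (a' r)) := by
      intro r hr hα
      exact ((hiff _ (hsel _ hα) r hr).1 (hsel' _ hα)).symm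
    have hcont : ContinuousOn (fun α => b (sel α)) (Icc u v) := by
      have hKc : IsClosed (I ∩ a ⁻¹' Icc u v) :=
        ha.preimage_isClosed_of_isClosed hIc.isClosed isClosed_Icc
      have hK : IsCompact (I ∩ a ⁻¹' Icc u v) := hIc.of_isClosed_subset hKc inter_subset_left
      refine continuousOn_of_factor hK (a := a) (b := b) (ha.mono inter_subset_left)
        (hb.mono inter_subset_left) ?_ (fun s hs => hs.2) (fun s hs => hl s hs.1 hs.2)
      intro α hα
      exact ⟨sel α, ⟨hsel α hα, by simp only [mem_preimage]; rw [hsel' α hα]; exact hα⟩, hsel' α hα⟩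
    have hinj : InjOn (fun α => b (sel α)) (Icc u v) := by
      intro α hα β hβ he'
      obtain ⟨r, hr1, hr2⟩ := hsa' β hβ
      have h3 : b (sel α) = b' r := by
        simp only at he'
        rw [he', hr r hr1 (by rw [hr2]; exact hβ), hr2]
      have h4 := (hiff _ (hsel α hα) r hr1).2 h3
      rw [hsel' α hα, hr2] at h4
      exact h4
    have hmono : ∃ σ : ℝ, (σ = 1 ∨ σ = -1) ∧ ∀ α ∈ Icc u v, ∀ β ∈ Icc u v, α < β →
        0 < σ * (b (sel β) - b (sel α)) := by
      rcases ContinuousOn.strictMonoOn_of_injOn_Icc' huv.le hcont hinj with hm | hm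
      · refine ⟨1, Or.inl rfl, fun α hα β hβ hlt => ?_⟩
        have := hm hα hβ hlt
        simp only at this
        linarith
      · refine ⟨-1, Or.inr rfl, fun α hα β hβ hlt => ?_⟩
        have := hm hα hβ hlt
        simp only at this
        linarith
    obtain ⟨σ, hσ, hm⟩ := hmono
    refine ⟨σ, hσ, fun s hs r hr' hne' => ?_⟩
    by_cases hsU : a s ∈ Icc u v
    · by_cases hrU : a' r ∈ Icc u v
      · rw [hl s hs hsU, hr r hr' hrU]
        rcases lt_or_gt_of_ne hne' with hlt | hgt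
        · have := hm _ hsU _ hrU hlt
          have e : σ * ((a s - a' r) * (b (sel (a s)) - b (sel (a' r)))) =
              (a' r - a s) * (σ * (b (sel (a' r)) - b (sel (a s)))) := by ring
          rw [e]
          exact mul_pos (by linarith) this
        · have := hm _ hrU _ hsU hgt
          have e : σ * ((a s - a' r) * (b (sel (a s)) - b (sel (a' r)))) =
              (a s - a' r) * (σ * (b (sel (a s)) - b (sel (a' r)))) := by ring
          rw [e]
          exact mul_pos (by linarith) this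
      · -- second curve beyond the common range
        have key := beyond2 hI' hIp ha' hb' ha hb hiffs (h := fun α => b (sel α)) huv hm hr hl hsa'
          (fun α hα => ⟨sel α, hsel α hα, hsel' α hα⟩) hr'
          (by
            intro hgt s' hs'
            have h2 : v = a smax := by
              rw [hv]
              refine min_eq_left ?_
              by_contra hcon
              push Not at hcon
              have h3 : v = a' rmax := by rw [hv]; exact min_eq_right hcon.le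
              have := hrg r hr'
              linarith
            have := hsg s' hs'
            linarith)
          (by
            intro hlt s' hs'
            have h2 : u = a smin := by
              rw [hu]
              refine max_eq_left ?_
              by_contra hcon
              push Not at hcon
              have h3 : u = a' rmin := by rw [hu]; exact max_eq_right hcon.le
              have := hrl r hr'
              linarith
            have := hsl s' hs'
            linarith)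
          hrU s hs (Ne.symm hne')
        have e : σ * ((a s - a' r) * (b s - b' r)) = σ * ((a' r - a s) * (b' r - b s)) := by ring
        rw [e]
        exact key
    · -- first curve beyond the common range
      refine beyond2 hI hIp' ha hb ha' hb' hiff (h := fun α => b (sel α)) huv hm hl hr
        (fun α hα => ⟨sel α, hsel α hα, hsel' α hα⟩) hsa' hs ?_ ?_ hsU r hr' hne'
      · intro hgt r' hr''
        have h2 : v = a' rmax := by
          rw [hv]
          refine min_eq_right ?_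
          by_contra hcon
          push Not at hcon
          have h3 : v = a smax := by rw [hv]; exact min_eq_left hcon.le
          have := hsg s hs
          linarith
        have := hrg r' hr''
        linarith
      · intro hlt r' hr''
        have h2 : u = a' rmin := by
          rw [hu]
          refine max_eq_right ?_
          by_contra hcon
          push Not at hcon
          have h3 : u = a smin := by rw [hu]; exact max_eq_left hcon.le
          have := hsl s hs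
          linarith
        have := hrl r' hr''
        linarith
  · -- opposite quadrants
    push Not at hU
    have hcoA : ∀ s ∈ I, ∀ r ∈ I', a s = a' r → a s = 0 := fun s hs r hr h => hU s hs r hr h
    have hB : ∃ s ∈ I, b s ≠ 0 := by
      obtain ⟨s, hs, hne⟩ := hA
      refine ⟨s, hs, fun h2 => hne ?_⟩
      have := (hiff s hs r₀ hr₀).2 (by rw [h2, h1b])
      rw [this, h1]
    have hB' : ∃ r ∈ I', b' r ≠ 0 := by
      obtain ⟨r, hr, hne⟩ := hA'
      refine ⟨r, hr, fun h2 => hne ?_⟩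
      have := (hiff s₀ hs₀ r hr).2 (by rw [h2, h0b])
      rw [← this, h0]
    have hcoB : ∀ s ∈ I, ∀ r ∈ I', b s = b' r → b s = 0 := by
      intro s hs r hr he
      have h2 := (hiff s hs r hr).2 he
      have h3 := hU s hs r hr h2
      have h4 := (hiff s hs r₀ hr₀).1 (by rw [h3, h1])
      rw [h4, h1b]
    obtain ⟨τ, hτ, h3⟩ := opposite hIp hIp' ha ha' hs₀ hr₀ h0 h1 hA hA' hcoA
    obtain ⟨τ', hτ', h4⟩ := opposite hIp hIp' hb hb' hs₀ hr₀ h0b h1b hB hB' hcoB
    refine ⟨τ * τ', ?_, fun s hs r hr hne => ?_⟩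
    · rcases hτ with rfl | rfl <;> rcases hτ' with rfl | rfl <;> simp
    · have h5 := h3 s hs r hr hne
      have h6 := h4 s hs r hr (fun h => hne ((hiff s hs r hr).2 h))
      have e : τ * τ' * ((a s - a' r) * (b s - b' r)) =
          (τ * (a s - a' r)) * (τ' * (b s - b' r)) := by ring
      rw [e]
      exact mul_pos h5 h6

end Vale.Agent.Lib.P084.Dim3N
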