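import Mathlib

/-! Birkhoff orthogonality, chords with equal end norms, and a norm estimate on a line. -/

namespace Vale.Agent.Lib.P084.Dim3N

open Set Filter Topology

variable {V : Type*} [NormedAddCommGroup V] [NormedSpace ℝ V]

/-- Birkhoff orthogonality. -/
def BOrth (p e : V) : Prop := ∀ τ : ℝ, ‖p‖ ≤ ‖p + τ • e‖

lemma BOrth.smul_right {p e : V} (h : BOrth p e) (s : ℝ) : BOrth p (s • e) := by
  intro τ
  have := h (τ * s)
  rwa [mul_smul] at this

/-- A chord with equal end norms has a point Birkhoff orthogonal to it. -/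
lemma chord_point {P Q : V} (h : ‖P‖ = ‖Q‖) :
    ∃ θ ∈ Icc (0 : ℝ) 1, BOrth (Q + θ • (P - Q)) (P - Q) := by
  have hc : ContinuousOn (fun t : ℝ => ‖Q + t • (P - Q)‖) (Icc 0 1) := by
    apply Continuous.continuousOn
    fun_prop
  obtain ⟨θ, hθ, hmin⟩ := isCompact_Icc.exists_isMinOn (nonempty_Icc.2 zero_le_one) hc
  refine ⟨θ, hθ, fun τ => ?_⟩
  have hmin' : ∀ t ∈ Icc (0 : ℝ) 1, ‖Q + θ • (P - Q)‖ ≤ ‖Q + t • (P - Q)‖ := fun t ht => hmin ht
  have e1 : Q + θ • (P - Q) + τ • (P - Q) = Q + (θ + τ) • (P - Q) := by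
    rw [add_smul, add_assoc]
  rw [e1]
  obtain ⟨t, ht⟩ : ∃ t, t = θ + τ := ⟨_, rfl⟩
  rw [← ht]
  have h0 : ‖Q + θ • (P - Q)‖ ≤ ‖Q‖ := by
    have := hmin' 0 ⟨le_refl _, zero_le_one⟩
    simpa using this
  rcases lt_trichotomy t 0 with htl | hte | htg
  · -- `t < 0`
    refine h0.trans ?_
    have hpos : 0 < 1 - t := by linarith
    have e2 : (1 - t) • Q = (Q + t • (P - Q)) + (-t) • P := by
      simp only [smul_sub, sub_smul, one_smul, neg_smul]
      abel
    have h3 : (1 - t) * ‖Q‖ ≤ ‖Q + t • (P - Q)‖ + (-t) * ‖P‖ := by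
      have h4 := congrArg norm e2
      rw [norm_smul, Real.norm_of_nonneg hpos.le] at h4
      rw [h4]
      refine (norm_add_le _ _).trans ?_
      rw [norm_smul, Real.norm_of_nonneg (by linarith)]
    rw [h] at h3
    nlinarith
  · rw [hte]
    simpa using h0
  · by_cases ht1 : t ≤ 1
    · exact hmin' t ⟨htg.le, ht1⟩
    · -- `t > 1`
      push Not at ht1
      have h1 : ‖Q + θ • (P - Q)‖ ≤ ‖P‖ := by
        have := hmin' 1 ⟨zero_le_one, le_refl _⟩
        simpa using this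
      refine h1.trans ?_
      have e2 : t • P = (Q + t • (P - Q)) + (t - 1) • Q := by
        simp only [smul_sub, sub_smul, one_smul]
        abel
      have h3 : t * ‖P‖ ≤ ‖Q + t • (P - Q)‖ + (t - 1) * ‖Q‖ := by
        have h4 := congrArg norm e2
        rw [norm_smul, Real.norm_of_nonneg htg.le] at h4
        rw [h4]
        refine (norm_add_le _ _).trans ?_
        rw [norm_smul, Real.norm_of_nonneg (by linarith)]
      rw [← h] at h3
      nlinarith

/-- Birkhoff orthogonality is a closed condition. -/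
lemma BOrth_limit {ι : Type*} {l : Filter ι} [NeBot l] {p e : ι → V} {p₀ e₀ : V}
    (h : ∀ᶠ i in l, BOrth (p i) (e i)) (hp : Tendsto p l (𝓝 p₀)) (he : Tendsto e l (𝓝 e₀)) :
    BOrth p₀ e₀ := by
  intro τ
  refine le_of_tendsto_of_tendsto hp.norm (hp.add (he.const_smul τ)).norm ?_
  filter_upwards [h] with i hi
  exact hi τ

/-- Two vectors Birkhoff orthogonal to a nonzero combination of them are parallel. -/
lemma orth_dep [StrictConvexSpace ℝ V] {p q e : V} (hp : BOrth p e) (hq : BOrth q e) (he : e ≠ 0)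
    {α β : ℝ} (h : e = α • p + β • q) (hq0 : q ≠ 0) : ∃ κ : ℝ, p = κ • q := by
  by_cases hp0 : p = 0
  · exact ⟨0, by simp [hp0]⟩
  by_cases hα : α = 0
  · exfalso
    have hβ : β ≠ 0 := by
      rintro rfl
      apply he
      rw [h, hα]
      simp
    have h1 := hq (-(1 / β))
    have e1 : q + (-(1 / β)) • e = 0 := by
      rw [h, hα, zero_smul, zero_add, smul_smul]
      have : -(1 / β) * β = -1 := by field_simp
      rw [this]
      simp
    rw [e1, norm_zero] at h1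
    exact hq0 (norm_le_zero_iff.1 h1)
  by_cases hβ : β = 0
  · exfalso
    have h1 := hp (-(1 / α))
    have e1 : p + (-(1 / α)) • e = 0 := by
      rw [h, hβ, zero_smul, add_zero, smul_smul]
      have : -(1 / α) * α = -1 := by field_simp
      rw [this]
      simp
    rw [e1, norm_zero] at h1
    exact hp0 (norm_le_zero_iff.1 h1)
  have h1 : |α| * ‖p‖ ≤ |β| * ‖q‖ := by
    have h2 := hp (-(1 / α))
    have e1 : p + (-(1 / α)) • e = (-(β / α)) • q := by
      rw [h, smul_add, smul_smul, smul_smul]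
      have e2 : -(1 / α) * α = -1 := by field_simp
      have e3 : -(1 / α) * β = -(β / α) := by field_simp
      rw [e2, e3]
      simp
    rw [e1, norm_smul, Real.norm_eq_abs, abs_neg, abs_div] at h2
    have hα' : 0 < |α| := abs_pos.2 hα
    calc |α| * ‖p‖ ≤ |α| * (|β| / |α| * ‖q‖) := by gcongr
      _ = |β| * ‖q‖ := by field_simp
  have h1' : |β| * ‖q‖ ≤ |α| * ‖p‖ := by
    have h2 := hq (-(1 / β))
    have e1 : q + (-(1 / β)) • e = (-(α / β)) • p := by
      rw [h, smul_add, smul_smul, smul_smul]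
      have e2 : -(1 / β) * β = -1 := by field_simp
      have e3 : -(1 / β) * α = -(α / β) := by field_simp
      rw [e2, e3]
      simp
    rw [e1, norm_smul, Real.norm_eq_abs, abs_neg, abs_div] at h2
    have hβ' : 0 < |β| := abs_pos.2 hβ
    calc |β| * ‖q‖ ≤ |β| * (|α| / |β| * ‖p‖) := by gcongr
      _ = |α| * ‖p‖ := by field_simp
  have heq : |α| * ‖p‖ = |β| * ‖q‖ := le_antisymm h1 h1'
  have hα' : 0 < |α| := abs_pos.2 hα
  -- the vector `q' = (β / α) q` has the norm of `p`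
  have hq' : ‖(-(β / α)) • q‖ = ‖p‖ := by
    rw [norm_smul, Real.norm_eq_abs, abs_neg, abs_div]
    field_simp
    linarith
  have h2 := hp (-(1 / (2 * α)))
  have e1 : p + (-(1 / (2 * α))) • e = (1 / 2 : ℝ) • (p + (-(β / α)) • q) := by
    rw [h, smul_add, smul_smul, smul_add, smul_smul, smul_smul, ← add_assoc]
    have e2 : -(1 / (2 * α)) * α = -(1 / 2) := by field_simp
    have e3 : -(1 / (2 * α)) * β = 1 / 2 * -(β / α) := by field_simp
    rw [e2, e3]
    congr 1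
    rw [neg_smul]
    have e4 : (1 / 2 : ℝ) • p = p - (1 / 2 : ℝ) • p := by
      rw [eq_sub_iff_add_eq, ← add_smul]
      norm_num
    rw [← sub_eq_add_neg, ← e4]
  rw [e1, norm_smul, Real.norm_of_nonneg (by norm_num)] at h2
  have h3 : ‖p + (-(β / α)) • q‖ = ‖p‖ + ‖(-(β / α)) • q‖ := by
    refine le_antisymm (norm_add_le _ _) ?_
    rw [hq']
    linarith
  have hray := sameRay_iff_norm_add.2 h3
  have h5 := hray.norm_smul_eq
  rw [hq'] at h5
  have hpn : ‖p‖ ≠ 0 := norm_ne_zero_iff.2 hp0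
  have h6 : p = (-(β / α)) • q := (smul_right_injective V hpn h5).symm
  exact ⟨-(β / α), h6⟩

/-- The norm along a line through a point and a far point. -/
lemma slope_up {b G : V} {m τ : ℝ} (hb : ‖b‖ = 1) (hm : ‖b - (1 / 2 : ℝ) • G‖ ≤ 1 - m) (hτ : 0 ≤ τ) :
    1 + 2 * m * τ ≤ ‖b + τ • G‖ := by
  have e : (2 * τ + 1) • b = (b + τ • G) + (2 * τ) • (b - (1 / 2 : ℝ) • G) := by
    rw [smul_sub, smul_smul, add_smul, one_smul]
    have : 2 * τ * (1 / 2) = τ := by ring
    rw [this]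
    abel
  have h1 : (2 * τ + 1) * ‖b‖ ≤ ‖b + τ • G‖ + (2 * τ) * ‖b - (1 / 2 : ℝ) • G‖ := by
    have h2 := congrArg norm e
    rw [norm_smul, Real.norm_of_nonneg (by linarith)] at h2
    rw [h2]
    refine (norm_add_le _ _).trans ?_
    rw [norm_smul, Real.norm_of_nonneg (by linarith)]
  rw [hb] at h1
  have h3 : (2 * τ) * ‖b - (1 / 2 : ℝ) • G‖ ≤ (2 * τ) * (1 - m) :=
    mul_le_mul_of_nonneg_left hm (by linarith)
  nlinarith

/-- The main estimate: a point of the chord of `(c - v, u - b)` parallel to the point of the chord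
of `(b + c, u + v)` forces the chord to be short. -/
lemma far_core {u v b c : V} (hu : ‖u‖ = 1) (hv : ‖v‖ = 1) (hb : ‖b‖ = 1) (hc : ‖c‖ = 1)
    {m κ θ₁ θ₃ : ℝ} (hm : 0 < m) (hm2 : ‖b - c‖ / 2 ≤ 1 - m)
    (hD : ‖(u + v) - (b + c)‖ ≤ m) (hθ₁ : θ₁ ∈ Icc (0 : ℝ) 1) (hθ₃ : θ₃ ∈ Icc (0 : ℝ) 1)
    (hκ : (c - v) + θ₁ • ((u + v) - (b + c)) = κ • ((b + c) + θ₃ • ((u + v) - (b + c)))) :
    ‖u - b‖ ≤ (4 / m + 3) * ‖(u + v) - (b + c)‖ := by
  obtain ⟨e, he⟩ : ∃ e, e = (u + v) - (b + c) := ⟨_, rfl⟩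
  rw [← he] at hD hκ ⊢
  obtain ⟨G, hG⟩ : ∃ G, G = b + c := ⟨_, rfl⟩
  have hGn : ‖G‖ ≤ 2 := by
    rw [hG]
    refine (norm_add_le _ _).trans ?_
    rw [hb, hc]
    norm_num
  have h12 : ‖b - (1 / 2 : ℝ) • G‖ ≤ 1 - m := by
    have e1 : b - (1 / 2 : ℝ) • G = (1 / 2 : ℝ) • (b - c) := by
      rw [hG, smul_add, smul_sub]
      have : b = (1 / 2 : ℝ) • b + (1 / 2 : ℝ) • b := by
        rw [← add_smul]
        norm_num
      nth_rewrite 1 [this]
      abel
    rw [e1, norm_smul, Real.norm_of_nonneg (by norm_num)]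
    linarith
  have h13 : ‖(b - G) - (1 / 2 : ℝ) • (- G)‖ ≤ 1 - m := by
    have e1 : (b - G) - (1 / 2 : ℝ) • (- G) = b - (1 / 2 : ℝ) • G := by
      rw [smul_neg]
      have : G = (1 / 2 : ℝ) • G + (1 / 2 : ℝ) • G := by
        rw [← add_smul]
        norm_num
      nth_rewrite 1 [this]
      abel
    rw [e1]
    exact h12
  have hbG : ‖b - G‖ = 1 := by
    have : b - G = - c := by rw [hG]; abel
    rw [this, norm_neg, hc]
  obtain ⟨E, hE⟩ : ∃ E, E = ‖e‖ := ⟨_, rfl⟩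
  rw [← hE] at hD ⊢
  have hE0 : 0 ≤ E := hE ▸ norm_nonneg e
  have hmain : ∀ t : ℝ, 0 ≤ t → 2 * m * t ≤ (t + 1) * E → t ≤ E / m ∧ 2 * t + (t + 1) * E ≤ (4 / m + 3) * E := by
    intro t ht h
    have h1 : m * t ≤ E := by nlinarith
    have h2 : t ≤ E / m := by
      rw [le_div_iff₀ hm]
      linarith
    refine ⟨h2, ?_⟩
    have h3 : E / m ≤ 1 := by
      rw [div_le_one hm]
      exact hD
    have e2 : (4 / m + 3) * E = 4 * (E / m) + 3 * E := by
      field_simp
    rw [e2]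
    have h4 : t * E ≤ E := by
      have : t ≤ 1 := h2.trans h3
      nlinarith
    nlinarith
  -- the representation of `u - b`
  have hA : u - b = κ • G + (κ * θ₃ + 1 - θ₁) • e := by
    have h1 : u - b = (c - v) + e := by
      rw [he]
      abel
    have h2 : c - v = κ • (G + θ₃ • e) - θ₁ • e := by
      rw [eq_sub_iff_add_eq, hκ, hG]
    rw [h1, h2, smul_add, smul_smul, sub_smul, add_smul, one_smul]
    abel
  rcases le_or_gt 0 κ with hκ0 | hκ0
  · -- `κ ≥ 0`
    have hρ0 : 0 ≤ κ * θ₃ + 1 - θ₁ := by nlinarith [hθ₁.2, hθ₃.1]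
    have hρ1 : κ * θ₃ + 1 - θ₁ ≤ κ + 1 := by nlinarith [hθ₁.1, hθ₃.2]
    have hr : ‖(κ * θ₃ + 1 - θ₁) • e‖ ≤ (κ + 1) * E := by
      rw [norm_smul, Real.norm_of_nonneg hρ0, ← hE]
      exact mul_le_mul_of_nonneg_right hρ1 hE0
    have h1 := slope_up hb h12 hκ0
    have h2 : b + κ • G = u - (κ * θ₃ + 1 - θ₁) • e := by
      rw [eq_sub_iff_add_eq, add_assoc, ← hA]
      abel
    rw [h2] at h1
    have h3 : ‖u - (κ * θ₃ + 1 - θ₁) • e‖ ≤ 1 + (κ + 1) * E := by
      refine (norm_sub_le _ _).trans ?_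
      rw [hu]
      linarith
    obtain ⟨h4, h5⟩ := hmain κ hκ0 (by linarith)
    rw [hA]
    refine (norm_add_le _ _).trans ?_
    rw [norm_smul, Real.norm_of_nonneg hκ0]
    have h6 : κ * ‖G‖ ≤ κ * 2 := mul_le_mul_of_nonneg_left hGn hκ0
    linarith
  · -- `κ < 0`
    have hρ0 : |κ * θ₃ + 1 - θ₁| ≤ -κ + 1 := by
      rw [abs_le]
      constructor <;> nlinarith [hθ₁.1, hθ₁.2, hθ₃.1, hθ₃.2]
    have hρ1 : |κ * θ₃ - θ₁| ≤ -κ + 1 := by
      rw [abs_le]
      constructor <;> nlinarith [hθ₁.1, hθ₁.2, hθ₃.1, hθ₃.2]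
    have hr : ‖(κ * θ₃ + 1 - θ₁) • e‖ ≤ (-κ + 1) * E := by
      rw [norm_smul, Real.norm_eq_abs, ← hE]
      exact mul_le_mul_of_nonneg_right hρ0 hE0
    have hr' : ‖(κ * θ₃ - θ₁) • e‖ ≤ (-κ + 1) * E := by
      rw [norm_smul, Real.norm_eq_abs, ← hE]
      exact mul_le_mul_of_nonneg_right hρ1 hE0
    have h1 := slope_up (b := b - G) (G := - G) (τ := -κ) hbG h13 (by linarith)
    have h2 : (b - G) + (-κ) • (- G) = (- v) - (κ * θ₃ - θ₁) • e := by
      have h3 : u + v = G + e := by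
        rw [he, hG]
        abel
      have h4 : - v = u - (u + v) := by abel
      rw [h4, h3]
      have h5 : u = b + (κ • G + (κ * θ₃ + 1 - θ₁) • e) := by
        rw [← hA]
        abel
      rw [h5]
      simp only [smul_neg, neg_smul, neg_neg, sub_smul, add_smul, one_smul]
      abel
    rw [h2] at h1
    have h3 : ‖(- v) - (κ * θ₃ - θ₁) • e‖ ≤ 1 + (-κ + 1) * E := by
      refine (norm_sub_le _ _).trans ?_
      rw [norm_neg, hv]
      linarith
    obtain ⟨h4, h5⟩ := hmain (-κ) (by linarith) (by linarith)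
    rw [hA]
    refine (norm_add_le _ _).trans ?_
    rw [norm_smul, Real.norm_eq_abs, abs_of_neg hκ0]
    have h6 : -κ * ‖G‖ ≤ -κ * 2 := mul_le_mul_of_nonneg_left hGn (by linarith)
    linarith

end Vale.Agent.Lib.P084.Dim3N
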