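import Mathlib

/-! A combinatorial lemma about a periodic curve and an antisymmetric label on pairs of parameters. -/

set_option linter.unusedSectionVars false

namespace Vale.Agent.Lib.P084.Dim3N

open Set Filter Topology

variable {V : Type*} [TopologicalSpace V] [T2Space V]

/-- The curve is not locally constant at `x`. -/
def Act (γ : ℝ → V) (x : ℝ) : Prop := ∀ ε > 0, ∃ x', |x' - x| < ε ∧ γ x' ≠ γ x

/-- The hypotheses of the combinatorial lemma. -/
structure LabelData (γ : ℝ → V) (Q : ℝ → ℝ → ℝ) (T F : ℝ) : Prop where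
  hF : 0 < F
  hFT : 9 * F ≤ T
  cont : Continuous γ
  per : ∀ x, γ (x + T) = γ x
  contQ : Continuous (fun p : ℝ × ℝ => Q p.1 p.2)
  anti : ∀ x y, Q y x = - Q x y
  perQ : ∀ x y, Q (x + T) y = Q x y
  far : ∀ x y, y + F ≤ x → x ≤ y + T - F → γ x ≠ γ y → Q x y ≠ 0
  cl : ∀ x y, y < x → x < y + T → γ x = γ y →
    ∃ ε > 0, ∀ x' y', |x' - x| < ε → |y' - y| < ε → γ x' ≠ γ y' → Q x' y' ≠ 0
  ll : ∀ x y, y < x → x < y + T → γ x = γ y → Act γ x → Act γ y →
    ∃ ε > 0, ∃ σ : ℝ, (σ = 1 ∨ σ = -1) ∧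
      ∀ x' y', |x' - x| < ε → |y' - y| < ε → γ x' ≠ γ y' → 0 < σ * Q x' y'

/-- The label has a constant sign `σ` near the pair `(x, y)`. -/
def SignAt (γ : ℝ → V) (Q : ℝ → ℝ → ℝ) (x y σ : ℝ) : Prop :=
  (σ = 1 ∨ σ = -1) ∧ ∃ ε > 0, ∀ x' y', |x' - x| < ε → |y' - y| < ε → γ x' ≠ γ y' → 0 < σ * Q x' y'

lemma sign_eq {σ σ' q : ℝ} (h : σ = 1 ∨ σ = -1) (h' : σ' = 1 ∨ σ' = -1) (h1 : 0 < σ * q)
    (h2 : 0 < σ' * q) : σ = σ' := by
  rcases h with rfl | rfl <;> rcases h' with rfl | rfl <;> first | rfl | (exfalso; linarith)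

/-- A locally constant label on a closed interval is constant. -/
lemma const_on_Icc {l r : ℝ} (R : ℝ → ℝ → Prop)
    (hex : ∀ x ∈ Icc l r, ∃ σ, (σ = 1 ∨ σ = -1) ∧ R x σ)
    (huniq : ∀ x ∈ Icc l r, ∀ σ σ', (σ = 1 ∨ σ = -1) → (σ' = 1 ∨ σ' = -1) → R x σ → R x σ' → σ = σ')
    (hloc : ∀ x ∈ Icc l r, ∀ σ, (σ = 1 ∨ σ = -1) → R x σ → ∀ᶠ x' in 𝓝 x, x' ∈ Icc l r → R x' σ)
    {x x' : ℝ} (hx : x ∈ Icc l r) (hx' : x' ∈ Icc l r) {σ : ℝ} (hσ : σ = 1 ∨ σ = -1)
    (hR : R x σ) : R x' σ := by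
  have hconn : IsPreconnected (Icc l r) := isPreconnected_Icc
  have hps : PreconnectedSpace (Icc l r) := Subtype.preconnectedSpace hconn
  set A : Set (Icc l r) := {z | R z σ} with hA
  have hopen : IsOpen A := by
    rw [isOpen_iff_mem_nhds]
    intro z hz
    have h1 := hloc z z.2 σ hσ hz
    have h2 := (continuous_subtype_val.tendsto z).eventually h1
    filter_upwards [h2] with y hy
    exact hy y.2
  have hclosed : IsClosed A := by
    rw [← isOpen_compl_iff, isOpen_iff_mem_nhds]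
    intro z hz
    obtain ⟨σ', hσ', hR'⟩ := hex z z.2
    have h1 := hloc z z.2 σ' hσ' hR'
    have h2 := (continuous_subtype_val.tendsto z).eventually h1
    have hne : σ' ≠ σ := by
      rintro rfl
      exact hz hR'
    filter_upwards [h2] with y hy hyA
    exact hne (huniq y y.2 σ' σ hσ' hσ (hy y.2) hyA)
  have hclopen : IsClopen A := ⟨hclosed, hopen⟩
  have hmem : (⟨x, hx⟩ : Icc l r) ∈ A := hR
  have huniv := hclopen.eq_univ ⟨_, hmem⟩
  have : (⟨x', hx'⟩ : Icc l r) ∈ A := by rw [huniv]; trivial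
  exact this

/-- A curve without active point on an interval is constant there. -/
lemma const_of_no_act {γ : ℝ → V} {l r : ℝ} (h : ∀ x ∈ Icc l r, ¬ Act γ x) {x x' : ℝ}
    (hx : x ∈ Icc l r) (hx' : x' ∈ Icc l r) : γ x' = γ x := by
  have hps : PreconnectedSpace (Icc l r) := Subtype.preconnectedSpace isPreconnected_Icc
  have hloc : IsLocallyConstant (fun z : Icc l r => γ z) := by
    rw [IsLocallyConstant.iff_eventually_eq]
    intro z
    have hz := h z z.2
    simp only [Act, not_forall, not_exists, not_and, not_not] at hz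
    obtain ⟨ε, hε, hz⟩ := hz
    have h1 : ∀ᶠ y : Icc l r in 𝓝 z, |(y : ℝ) - z| < ε := by
      have h2 : Metric.ball z ε ∈ 𝓝 z := Metric.ball_mem_nhds z hε
      filter_upwards [h2] with y hy
      have : dist y z < ε := hy
      rwa [Subtype.dist_eq, Real.dist_eq] at this
    filter_upwards [h1] with y hy
    exact hz y hy
  exact hloc.apply_eq_of_preconnectedSpace (⟨x', hx'⟩ : Icc l r) (⟨x, hx⟩ : Icc l r)

/-- The right end of a constancy interval. -/
lemma exists_end_right {γ : ℝ → V} (hc : Continuous γ) {x r : ℝ} (hxr : x ≤ r)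
    (h : ¬ ∀ s ∈ Icc x r, γ s = γ x) :
    ∃ e ∈ Ico x r, (∀ s ∈ Icc x e, γ s = γ x) ∧ ∀ ε > 0, ∃ s ∈ Ioo e (e + ε), γ s ≠ γ x := by
  set S : Set ℝ := {t | t ∈ Icc x r ∧ ∀ s ∈ Icc x t, γ s = γ x} with hS
  have hxS : x ∈ S := by
    refine ⟨⟨le_refl _, hxr⟩, fun s hs => ?_⟩
    rw [le_antisymm hs.2 hs.1]
  have hbdd : BddAbove S := ⟨r, fun t ht => ht.1.2⟩
  set e := sSup S with he
  have hxe : x ≤ e := le_csSup hbdd hxS
  have her : e ≤ r := csSup_le ⟨x, hxS⟩ fun t ht => ht.1.2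
  have hconst : ∀ s ∈ Ico x e, γ s = γ x := by
    intro s hs
    obtain ⟨t, ht, hst⟩ := exists_lt_of_lt_csSup ⟨x, hxS⟩ hs.2
    exact ht.2 s ⟨hs.1, hst.le⟩
  have hconst' : ∀ s ∈ Icc x e, γ s = γ x := by
    intro s hs
    rcases eq_or_lt_of_le hs.2 with hse | hlt
    · rw [hse]
      by_cases hxe' : x = e
      · rw [← hxe']
      · have hcl : e ∈ closure (Ico x e) := by
          rw [closure_Ico hxe']
          exact ⟨hxe, le_refl _⟩
        have hcl2 : IsClosed {z | γ z = γ x} := isClosed_eq hc continuous_const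
        exact closure_minimal (fun z hz => hconst z hz) hcl2 hcl
    · exact hconst s ⟨hs.1, hlt⟩
  have heS : e ∈ S := ⟨⟨hxe, her⟩, hconst'⟩
  have her' : e < r := by
    refine lt_of_le_of_ne her ?_
    intro h'
    rw [h'] at hconst'
    exact h hconst'
  refine ⟨e, ⟨hxe, her'⟩, hconst', fun ε hε => ?_⟩
  set t := min (e + ε / 2) r with ht
  have het : e < t := lt_min (by linarith) her'
  have htS : t ∉ S := fun hts => not_lt.2 (le_csSup hbdd hts) het
  have htI : t ∈ Icc x r := ⟨by linarith, min_le_right _ _⟩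
  have : ¬ ∀ s ∈ Icc x t, γ s = γ x := fun h' => htS ⟨htI, h'⟩
  push Not at this
  obtain ⟨s, hs, hne⟩ := this
  have hse : e < s := by
    by_contra hcon
    exact hne (hconst' s ⟨hs.1, not_lt.1 hcon⟩)
  refine ⟨s, ⟨hse, ?_⟩, hne⟩
  have := hs.2.trans (min_le_left _ _)
  linarith

/-- The left end of a constancy interval. -/
lemma exists_end_left {γ : ℝ → V} (hc : Continuous γ) {x l : ℝ} (hxl : l ≤ x)
    (h : ¬ ∀ s ∈ Icc l x, γ s = γ x) :
    ∃ e ∈ Ioc l x, (∀ s ∈ Icc e x, γ s = γ x) ∧ ∀ ε > 0, ∃ s ∈ Ioo (e - ε) e, γ s ≠ γ x := by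
  have hc' : Continuous (fun t : ℝ => γ (-t)) := hc.comp continuous_neg
  have h' : ¬ ∀ s ∈ Icc (-x) (-l), γ (-s) = γ (- -x) := by
    intro h2
    apply h
    intro s hs
    have := h2 (-s) ⟨by linarith [hs.2], by linarith [hs.1]⟩
    simpa using this
  obtain ⟨e, he, h1, h2⟩ := exists_end_right hc' (x := -x) (r := -l) (by linarith) h'
  refine ⟨-e, ⟨by linarith [he.2], by linarith [he.1]⟩, fun s hs => ?_, fun ε hε => ?_⟩
  · have := h1 (-s) ⟨by linarith [hs.2], by linarith [hs.1]⟩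
    simpa using this
  · obtain ⟨s, hs, hne⟩ := h2 ε hε
    refine ⟨-s, ⟨by linarith [hs.2], by linarith [hs.1]⟩, ?_⟩
    simpa using hne

lemma act_of_right {γ : ℝ → V} {e : ℝ} {c : V} (he : γ e = c)
    (h : ∀ ε > 0, ∃ s ∈ Ioo e (e + ε), γ s ≠ c) : Act γ e := by
  intro ε hε
  obtain ⟨s, hs, hne⟩ := h ε hε
  refine ⟨s, ?_, by rwa [he]⟩
  rw [abs_lt]
  constructor <;> linarith [hs.1, hs.2]

lemma act_of_left {γ : ℝ → V} {e : ℝ} {c : V} (he : γ e = c)
    (h : ∀ ε > 0, ∃ s ∈ Ioo (e - ε) e, γ s ≠ c) : Act γ e := by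
  intro ε hε
  obtain ⟨s, hs, hne⟩ := h ε hε
  refine ⟨s, ?_, by rwa [he]⟩
  rw [abs_lt]
  constructor <;> linarith [hs.1, hs.2]

namespace LabelData

variable {γ : ℝ → V} {Q : ℝ → ℝ → ℝ} {T F : ℝ}

lemma hT (D : LabelData γ Q T F) : 0 < T := by
  have := D.hF
  have := D.hFT
  linarith

lemma per_sub (D : LabelData γ Q T F) (x : ℝ) : γ (x - T) = γ x := by
  have := D.per (x - T)
  rw [sub_add_cancel] at this
  exact this.symm

lemma perQ_sub (D : LabelData γ Q T F) (x y : ℝ) : Q (x - T) y = Q x y := by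
  have := D.perQ (x - T) y
  rw [sub_add_cancel] at this
  exact this.symm

lemma perQ2 (D : LabelData γ Q T F) (x y : ℝ) : Q x (y + T) = Q x y := by
  rw [D.anti (y + T) x, D.perQ, ← D.anti]

lemma act_add (D : LabelData γ Q T F) {x : ℝ} (h : Act γ x) : Act γ (x + T) := by
  intro ε hε
  obtain ⟨x', h1, h2⟩ := h ε hε
  refine ⟨x' + T, ?_, by rwa [D.per, D.per]⟩
  have e : x' + T - (x + T) = x' - x := by ring
  rwa [e]

lemma act_sub (D : LabelData γ Q T F) {x : ℝ} (h : Act γ x) : Act γ (x - T) := by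
  intro ε hε
  obtain ⟨x', h1, h2⟩ := h ε hε
  refine ⟨x' - T, ?_, by rwa [D.per_sub, D.per_sub]⟩
  have e : x' - T - (x - T) = x' - x := by ring
  rwa [e]

/-- The closure statement in the other order. -/
lemma cl' (D : LabelData γ Q T F) {x y : ℝ} (h1 : x < y) (h2 : y < x + T) (h : γ x = γ y) :
    ∃ ε > 0, ∀ x' y', |x' - x| < ε → |y' - y| < ε → γ x' ≠ γ y' → Q x' y' ≠ 0 := by
  obtain ⟨ε, hε, hcl⟩ := D.cl y x h1 h2 h.symm
  refine ⟨ε, hε, fun x' y' hx hy hne => ?_⟩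
  have := hcl y' x' hy hx hne.symm
  rw [D.anti x' y'] at this
  exact neg_ne_zero.1 this

lemma signAt_swap (D : LabelData γ Q T F) {x y σ : ℝ} (h : SignAt γ Q x y σ) :
    SignAt γ Q y x (-σ) := by
  obtain ⟨hσ, ε, hε, hs⟩ := h
  refine ⟨by rcases hσ with rfl | rfl <;> simp, ε, hε, fun x' y' hx hy hne => ?_⟩
  have := hs y' x' hy hx hne.symm
  rw [D.anti y' x']
  linarith

lemma signAt_add (D : LabelData γ Q T F) {x y σ : ℝ} (h : SignAt γ Q x y σ) :
    SignAt γ Q (x + T) y σ := by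
  obtain ⟨hσ, ε, hε, hs⟩ := h
  refine ⟨hσ, ε, hε, fun x' y' hx hy hne => ?_⟩
  have e : x' - T - x = x' - (x + T) := by ring
  have := hs (x' - T) y' (by rwa [e]) hy (by rwa [D.per_sub])
  rwa [D.perQ_sub] at this

lemma signAt_sub (D : LabelData γ Q T F) {x y σ : ℝ} (h : SignAt γ Q x y σ) :
    SignAt γ Q (x - T) y σ := by
  obtain ⟨hσ, ε, hε, hs⟩ := h
  refine ⟨hσ, ε, hε, fun x' y' hx hy hne => ?_⟩
  have e : x' + T - x = x' - (x - T) := by ring
  have := hs (x' + T) y' (by rwa [e]) hy (by rwa [D.per])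
  rwa [D.perQ] at this

lemma exists_witness {x b : ℝ} (hb : Act γ b) {ε : ℝ} (hε : 0 < ε) :
    ∃ b', |b' - b| < ε ∧ γ x ≠ γ b' := by
  by_cases h : γ x = γ b
  · obtain ⟨b', h1, h2⟩ := hb ε hε
    exact ⟨b', h1, by rw [h]; exact h2.symm⟩
  · exact ⟨b, by simpa using hε, h⟩

/-- Uniqueness and local constancy of the sign. -/
lemma signAt_near_eq {x x₁ b σ σ₁ : ℝ} (hb : Act γ b) (h : SignAt γ Q x b σ)
    (h₁ : SignAt γ Q x₁ b σ₁) {ε : ℝ} (hbox : ∀ x' y', |x' - x| < ε → |y' - b| < ε → γ x' ≠ γ y' →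
      0 < σ * Q x' y') (hε : 0 < ε) (hx : |x₁ - x| < ε) : σ = σ₁ := by
  obtain ⟨hσ₁, ε₁, hε₁, hs₁⟩ := h₁
  obtain ⟨b', hb', hne⟩ := exists_witness (x := x₁) hb (lt_min hε hε₁)
  have h1 := hbox x₁ b' hx (lt_of_lt_of_le hb' (min_le_left _ _)) hne
  have h2 := hs₁ x₁ b' (by simpa using hε₁) (lt_of_lt_of_le hb' (min_le_right _ _)) hne
  exact sign_eq h.1 hσ₁ h1 h2

lemma signAt_unique {x b σ σ₁ : ℝ} (hb : Act γ b) (h : SignAt γ Q x b σ)
    (h₁ : SignAt γ Q x b σ₁) : σ = σ₁ := by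
  obtain ⟨hσ, ε, hε, hs⟩ := id h
  exact signAt_near_eq hb h h₁ hs hε (by simpa using hε)

lemma signAt_of_ne (D : LabelData γ Q T F) {x y : ℝ} (h : Q x y ≠ 0) :
    ∃ σ, SignAt γ Q x y σ := by
  have hcont : ContinuousAt (fun p : ℝ × ℝ => Q p.1 p.2) (x, y) := D.contQ.continuousAt
  rcases lt_or_gt_of_ne h with hneg | hpos
  · refine ⟨-1, Or.inr rfl, ?_⟩
    have h1 : ∀ᶠ p : ℝ × ℝ in 𝓝 (x, y), Q p.1 p.2 < 0 := hcont.eventually (gt_mem_nhds hneg)
    obtain ⟨ε, hε, hball⟩ := Metric.eventually_nhds_iff.1 h1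
    refine ⟨ε, hε, fun x' y' hx hy _ => ?_⟩
    have := hball (y := (x', y')) (by
      rw [Prod.dist_eq]
      exact max_lt (by rwa [Real.dist_eq]) (by rwa [Real.dist_eq]))
    simp only at this
    linarith
  · refine ⟨1, Or.inl rfl, ?_⟩
    have h1 : ∀ᶠ p : ℝ × ℝ in 𝓝 (x, y), 0 < Q p.1 p.2 := hcont.eventually (lt_mem_nhds hpos)
    obtain ⟨ε, hε, hball⟩ := Metric.eventually_nhds_iff.1 h1
    refine ⟨ε, hε, fun x' y' hx hy _ => ?_⟩
    have := hball (y := (x', y')) (by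
      rw [Prod.dist_eq]
      exact max_lt (by rwa [Real.dist_eq]) (by rwa [Real.dist_eq]))
    simp only at this
    linarith

/-- Nonvanishing of the label along a compact family of pairs, first coordinate near a point. -/
lemma tube_right (D : LabelData γ Q T F) {x y₁ y₂ : ℝ}
    (hcl : ∀ y ∈ Icc y₁ y₂, ∃ ε > 0, ∀ x' y', |x' - x| < ε → |y' - y| < ε → γ x' ≠ γ y' →
      Q x' y' ≠ 0) :
    ∃ ε > 0, ∀ x', |x' - x| < ε → ∀ y ∈ Icc y₁ y₂, γ x' ≠ γ y → Q x' y ≠ 0 := by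
  set W : Set (ℝ × ℝ) := {p | γ p.1 ≠ γ p.2 → Q p.1 p.2 ≠ 0} with hW
  have hsub : ({x} : Set ℝ) ×ˢ Icc y₁ y₂ ⊆ interior W := by
    rintro ⟨a, b⟩ ⟨ha, hb⟩
    have ha' : a = x := ha
    subst ha'
    obtain ⟨ε, hε, h⟩ := hcl b hb
    rw [mem_interior_iff_mem_nhds]
    have : Metric.ball (a, b) ε ∈ 𝓝 (a, b) := Metric.ball_mem_nhds _ hε
    filter_upwards [this] with p hp
    have h1 : dist p (a, b) < ε := hp
    rw [Prod.dist_eq] at h1
    have h2 : |p.1 - a| < ε := by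
      have := lt_of_le_of_lt (le_max_left _ _) h1
      rwa [Real.dist_eq] at this
    have h3 : |p.2 - b| < ε := by
      have := lt_of_le_of_lt (le_max_right _ _) h1
      rwa [Real.dist_eq] at this
    exact fun hne => h p.1 p.2 h2 h3 hne
  obtain ⟨u, v, hu, hv, hxu, hyv, huv⟩ := generalized_tube_lemma isCompact_singleton isCompact_Icc
    isOpen_interior hsub
  obtain ⟨ε, hε, hball⟩ := Metric.isOpen_iff.1 hu x (hxu rfl)
  refine ⟨ε, hε, fun x' hx' y hy hne => ?_⟩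
  have h1 : x' ∈ u := hball (by rwa [Metric.mem_ball, Real.dist_eq])
  have h2 : (x', y) ∈ interior W := huv ⟨h1, hyv hy⟩
  exact interior_subset h2 hne

/-- Sign propagation along a segment on which the label does not vanish. -/
lemma sign_walk {Q' : ℝ → ℝ} (hQ' : Continuous Q') {y₁ y₂ σ : ℝ}
    (hne : ∀ y ∈ uIcc y₁ y₂, Q' y ≠ 0) (h : 0 < σ * Q' y₁) : 0 < σ * Q' y₂ := by
  by_contra hcon
  have h2 : σ * Q' y₂ ≤ 0 := not_lt.1 hcon
  have hconn : IsPreconnected (uIcc y₁ y₂) := isPreconnected_uIcc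
  have hc : ContinuousOn (fun y => σ * Q' y) (uIcc y₁ y₂) :=
    (continuous_const.mul hQ').continuousOn
  have hiv := hconn.intermediate_value (right_mem_uIcc (a := y₁) (b := y₂))
    (left_mem_uIcc (a := y₁) (b := y₂)) hc
  obtain ⟨y, hy, hy0⟩ := hiv (show (0 : ℝ) ∈ Icc _ _ from ⟨h2, h.le⟩)
  have hσ : σ ≠ 0 := by
    rintro rfl
    simp at h
  exact hne y hy ((mul_eq_zero.1 hy0).resolve_left hσ)

lemma continuous_Q_right (D : LabelData γ Q T F) (x : ℝ) : Continuous (fun y => Q x y) :=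
  D.contQ.comp (continuous_const.prodMk continuous_id)

lemma continuous_Q_left (D : LabelData γ Q T F) (y : ℝ) : Continuous (fun x => Q x y) :=
  D.contQ.comp (continuous_id.prodMk continuous_const)

/-- Existence of the sign at a coincidence pair, second coordinate active. -/
lemma exists_signAt (D : LabelData γ Q T F) {x b : ℝ} (hb : Act γ b) (h1 : b < x) (h2 : x < b + T)
    (h : γ x = γ b) : ∃ σ, SignAt γ Q x b σ := by
  by_cases hx : Act γ x
  · obtain ⟨ε, hε, σ, hσ, hs⟩ := D.ll x b h1 h2 h hx hb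
    exact ⟨σ, hσ, ε, hε, hs⟩
  -- `x` lies in the interior of a constancy interval
  have hx' := hx
  simp only [Act, not_forall, not_exists, not_and, not_not] at hx'
  obtain ⟨ε₀, hε₀, hconst⟩ := hx'
  -- a general walk lemma along a segment ending at an active point
  have walk : ∀ z₁ z₂ zh : ℝ, z₁ ≤ z₂ → (∀ z ∈ Icc z₁ z₂, γ z = γ x) →
      (∀ z ∈ Icc z₁ z₂, b < z ∧ z < b + T) → zh ∈ Icc z₁ z₂ → Act γ zh →
      z₁ < x → x < z₂ → ∃ σ, SignAt γ Q x b σ := by
    intro z₁ z₂ zh hz hc hr hzh hact hz1 hz2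
    obtain ⟨ε₁, hε₁, σ, hσ, hs⟩ := D.ll zh b (hr zh hzh).1 (hr zh hzh).2 (by rw [hc zh hzh, h]) hact hb
    -- uniform nonvanishing
    have hcl : ∀ z ∈ Icc z₁ z₂, ∃ ε > 0, ∀ b' z', |b' - b| < ε → |z' - z| < ε → γ b' ≠ γ z' →
        Q b' z' ≠ 0 := by
      intro z hz'
      exact D.cl' (hr z hz').1 (hr z hz').2 (by rw [hc z hz', h])
    obtain ⟨ε₂, hε₂, ht⟩ := D.tube_right hcl
    refine ⟨σ, hσ, min (min (x - z₁) (z₂ - x)) (min ε₁ ε₂),
      lt_min (lt_min (by linarith) (by linarith)) (lt_min hε₁ hε₂), fun x' b' hx' hb' hne => ?_⟩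
    have hm1 := min_le_left (min (x - z₁) (z₂ - x)) (min ε₁ ε₂)
    have hm2 := min_le_right (min (x - z₁) (z₂ - x)) (min ε₁ ε₂)
    have hx'1 := lt_of_lt_of_le hx' hm1
    have hx'2 := abs_lt.1 hx'1
    have hm3 := min_le_left (x - z₁) (z₂ - x)
    have hm4 := min_le_right (x - z₁) (z₂ - x)
    have hx'I : x' ∈ Icc z₁ z₂ := ⟨by linarith [hx'2.1], by linarith [hx'2.2]⟩
    have hb'1 : |b' - b| < ε₁ :=
      lt_of_lt_of_le hb' (hm2.trans (min_le_left _ _))
    have hb'2 : |b' - b| < ε₂ :=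
      lt_of_lt_of_le hb' (hm2.trans (min_le_right _ _))
    have hbc : γ b' ≠ γ x := by
      rw [← hc x' hx'I]
      exact hne.symm
    have hzhpos : 0 < σ * Q zh b' :=
      hs zh b' (by simpa using hε₁) hb'1 (by rw [hc zh hzh]; exact hbc.symm)
    have hnv : ∀ z ∈ uIcc zh x', Q z b' ≠ 0 := by
      intro z hz'
      have hzI : z ∈ Icc z₁ z₂ := by
        have : uIcc zh x' ⊆ Icc z₁ z₂ := uIcc_subset_Icc hzh hx'I
        exact this hz'
      have h3 := ht b' hb'2 z hzI (by rw [hc z hzI]; exact hbc)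
      rw [D.anti b' z]
      exact neg_ne_zero.2 h3
    exact sign_walk (D.continuous_Q_left b') hnv hzhpos
  by_cases hr : ∀ s ∈ Icc x (b + T), γ s = γ x
  · -- the constancy interval reaches `b + T`: walk to the left
    have hl : ¬ ∀ s ∈ Icc b x, γ s = γ x := by
      intro hl
      -- then the curve is constant, contradiction with `hb`
      have hall : ∀ s ∈ Icc b (b + T), γ s = γ b := by
        intro s hs
        rw [← h]
        rcases le_total s x with hsx | hsx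
        · exact hl s ⟨hs.1, hsx⟩
        · exact hr s ⟨hsx, hs.2⟩
      have hconst' : ∀ s : ℝ, γ s = γ b := by
        intro s
        obtain ⟨k, hk⟩ : ∃ k : ℤ, s - k • T ∈ Ico b (b + T) := by
          obtain ⟨k, hk, -⟩ := existsUnique_sub_zsmul_mem_Ico D.hT s b
          exact ⟨k, hk⟩
        have hper : ∀ k : ℤ, ∀ t, γ (t + k • T) = γ t := by
          intro k
          induction k using Int.induction_on with
          | zero => simp
          | succ n ih =>
            intro t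
            have e : t + ((n : ℤ) + 1) • T = (t + (n : ℤ) • T) + T := by
              rw [add_zsmul, one_zsmul]; ring
            rw [e, D.per, ih]
          | pred n ih =>
            intro t
            have e : t + (-(n : ℤ) - 1) • T = (t + (-(n : ℤ)) • T) - T := by
              rw [sub_zsmul, one_zsmul]; ring
            rw [e, D.per_sub, ih]
        have h5 := hper k (s - k • T)
        rw [sub_add_cancel] at h5
        rw [h5]
        exact hall _ ⟨hk.1, hk.2.le⟩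
      obtain ⟨b', _, hne⟩ := hb 1 one_pos
      exact hne (hconst' b')
    obtain ⟨e, he, hec, hea⟩ := exists_end_left D.cont h1.le hl
    have hact : Act γ e := act_of_left (hec e ⟨le_refl _, he.2⟩) hea
    have hxe : e < x := by
      refine lt_of_le_of_ne he.2 ?_
      rintro rfl
      exact hx hact
    have hxe2 : x + ε₀ / 2 ≤ b + T ∨ b + T < x + ε₀ / 2 := le_or_gt _ _
    set z₂ := min (x + ε₀ / 2) (b + T) with hz₂
    -- `x < b + T` so the segment stays inside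
    have hxz : x < z₂ := lt_min (by linarith) h2
    -- the point `z₂` must be strictly below `b + T`
    have hz₂' : z₂ < b + T := by
      refine lt_of_le_of_ne (min_le_right _ _) ?_
      intro hz
      -- then `x + ε₀ / 2 ≥ b + T`, so `b + T` is near `x`, where the curve is constant
      have hz3 : b + T ≤ x + ε₀ / 2 := by
        rw [← hz]
        exact min_le_left _ _
      have h6 : Act γ (b + T) := D.act_add hb
      obtain ⟨s, hs1, hs2⟩ := h6 (ε₀ / 2) (by linarith)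
      have hs3 := abs_lt.1 hs1
      apply hs2
      have hbT : γ (b + T) = γ x := by rw [D.per, h]
      rw [hbT]
      exact hconst s (by rw [abs_lt]; constructor <;> linarith [hs3.1, hs3.2])
    refine walk e z₂ e (hxe.le.trans hxz.le) ?_ ?_ ⟨le_refl _, (hxe.trans hxz).le⟩ hact hxe hxz
    · intro z hz
      rcases le_total z x with hzx | hzx
      · exact hec z ⟨hz.1, hzx⟩
      · exact hr z ⟨hzx, hz.2.trans (min_le_right _ _)⟩
    · intro z hz
      exact ⟨lt_of_lt_of_le he.1 hz.1, lt_of_le_of_lt hz.2 hz₂'⟩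
  · -- walk to the right
    obtain ⟨e, he, hec, hea⟩ := exists_end_right D.cont h2.le hr
    have hact : Act γ e := act_of_right (hec e ⟨he.1, le_refl _⟩) hea
    have hxe : x < e := by
      refine lt_of_le_of_ne he.1 ?_
      rintro rfl
      exact hx hact
    -- a small segment to the left of `x`: it stays above `b` since `b` is active
    set z₁ := max (x - ε₀ / 2) b with hz₁
    have hzx : z₁ < x := max_lt (by linarith) h1
    have hz₁' : b < z₁ := by
      refine lt_of_le_of_ne (le_max_right _ _) ?_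
      intro hz
      have hz3 : x - ε₀ / 2 ≤ b := by
        rw [hz]
        exact le_max_left _ _
      have hb' := hb
      obtain ⟨s, hs1, hs2⟩ := hb' (ε₀ / 2) (by linarith)
      have hs3 := abs_lt.1 hs1
      apply hs2
      rw [hconst s (by rw [abs_lt]; constructor <;> linarith [hs3.1, hs3.2]),
        hconst b (by rw [abs_lt]; constructor <;> linarith)]
    refine walk z₁ e e (hzx.le.trans hxe.le) ?_ ?_ ⟨(hzx.trans hxe).le, le_refl _⟩ hact hzx hxe
    · intro z hz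
      rcases le_total z x with hzx' | hzx'
      · apply hconst
        have h3 : x - ε₀ / 2 ≤ z := (le_max_left _ _).trans hz.1
        rw [abs_lt]
        constructor <;> linarith
      · exact hec z ⟨hzx', hz.2⟩
    · intro z hz
      exact ⟨lt_of_lt_of_le hz₁' hz.1, lt_of_le_of_lt hz.2 he.2⟩

/-- A curve that is constant on a whole period is constant. -/
lemma const_of_period (D : LabelData γ Q T F) {b : ℝ} (hall : ∀ s ∈ Icc b (b + T), γ s = γ b)
    (s : ℝ) : γ s = γ b := by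
  obtain ⟨k, hk⟩ : ∃ k : ℤ, s - k • T ∈ Ico b (b + T) := by
    obtain ⟨k, hk, -⟩ := existsUnique_sub_zsmul_mem_Ico D.hT s b
    exact ⟨k, hk⟩
  have hper : ∀ k : ℤ, ∀ t, γ (t + k • T) = γ t := by
    intro k
    induction k using Int.induction_on with
    | zero => simp
    | succ n ih =>
      intro t
      have e : t + ((n : ℤ) + 1) • T = (t + (n : ℤ) • T) + T := by
        rw [add_zsmul, one_zsmul]; ring
      rw [e, D.per, ih]
    | pred n ih =>
      intro t
      have e : t + (-(n : ℤ) - 1) • T = (t + (-(n : ℤ)) • T) - T := by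
        rw [sub_zsmul, one_zsmul]; ring
      rw [e, D.per_sub, ih]
  have h5 := hper k (s - k • T)
  rw [sub_add_cancel] at h5
  rw [h5]
  exact hall _ ⟨hk.1, hk.2.le⟩

/-- A sign exists on the far range of an active point. -/
lemma signAt_far (D : LabelData γ Q T F) {x b : ℝ} (hb : Act γ b) (h1 : b + F ≤ x)
    (h2 : x ≤ b + T - F) : ∃ σ, SignAt γ Q x b σ := by
  have hF := D.hF
  by_cases h : γ x = γ b
  · exact D.exists_signAt hb (by linarith) (by linarith) h
  · exact D.signAt_of_ne (D.far x b h1 h2 h)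

/-- The sign is constant on the far range of an active point. -/
lemma signAt_range (D : LabelData γ Q T F) {x x' b σ : ℝ} (hb : Act γ b)
    (hx : x ∈ Icc (b + F) (b + T - F)) (hx' : x' ∈ Icc (b + F) (b + T - F))
    (h : SignAt γ Q x b σ) : SignAt γ Q x' b σ := by
  refine const_on_Icc (fun z σ => SignAt γ Q z b σ) ?_ ?_ ?_ hx hx' h.1 h
  · intro z hz
    obtain ⟨σ, hσ⟩ := D.signAt_far hb hz.1 hz.2
    exact ⟨σ, hσ.1, hσ⟩
  · intro z _ σ σ' _ _ h1 h2
    exact signAt_unique hb h1 h2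
  · intro z _ σ _ hz
    obtain ⟨_, ε, hε, hs⟩ := id hz
    have hn : Metric.ball z ε ∈ 𝓝 z := Metric.ball_mem_nhds _ hε
    filter_upwards [hn] with z' hz' hz'I
    obtain ⟨σ', hσ'⟩ := D.signAt_far hb hz'I.1 hz'I.2
    have h2 : |z' - z| < ε := by rwa [Metric.mem_ball, Real.dist_eq] at hz'
    have := signAt_near_eq hb hz hσ' hs hε h2
    rwa [this]

/-- The sign on the far range of an active point. -/
lemma exists_M (D : LabelData γ Q T F) {b : ℝ} (hb : Act γ b) :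
    ∃ σ, (σ = 1 ∨ σ = -1) ∧ ∀ x ∈ Icc (b + F) (b + T - F), SignAt γ Q x b σ := by
  have hF := D.hF
  have hFT := D.hFT
  have h0 : b + F ∈ Icc (b + F) (b + T - F) := ⟨le_refl _, by linarith⟩
  obtain ⟨σ, hσ⟩ := D.signAt_far hb h0.1 h0.2
  exact ⟨σ, hσ.1, fun x hx => D.signAt_range hb h0 hx hσ⟩

/-- Two far active points have opposite signs. -/
lemma sign_rel (D : LabelData γ Q T F) {u v σ σ' : ℝ} (hu : Act γ u)
    (h1 : u + F ≤ v) (h2 : v + F ≤ u + T)
    (hσ : ∀ x ∈ Icc (u + F) (u + T - F), SignAt γ Q x u σ)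
    (hσ' : ∀ x ∈ Icc (v + F) (v + T - F), SignAt γ Q x v σ') : σ = - σ' := by
  have h3 := hσ v ⟨h1, by linarith⟩
  have h4 := hσ' (u + T) ⟨h2, by linarith⟩
  have h5 := D.signAt_sub h4
  rw [add_sub_cancel_right] at h5
  exact signAt_unique hu h3 (D.signAt_swap h5)

/-- Three pairwise far active points cannot exist. -/
lemma three_active_false (D : LabelData γ Q T F) {a b d : ℝ} (ha : Act γ a) (hb : Act γ b)
    (hd : Act γ d) (h1 : a + F ≤ b) (h2 : b + F ≤ d) (h3 : d + F ≤ a + T) : False := by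
  have hF := D.hF
  obtain ⟨σa, hσa, ha'⟩ := D.exists_M ha
  obtain ⟨σb, _, hb'⟩ := D.exists_M hb
  obtain ⟨σd, _, hd'⟩ := D.exists_M hd
  have e1 := D.sign_rel ha h1 (by linarith) ha' hb'
  have e2 := D.sign_rel hb h2 (by linarith) hb' hd'
  have e3 := D.sign_rel ha (by linarith) h3 ha' hd'
  rcases hσa with h | h <;> · rw [h] at e1 e3; linarith

/-- A constancy arc exists. -/
lemma exists_arc (D : LabelData γ Q T F) : ∃ p, ∀ s ∈ Icc p (p + 2 * F), γ s = γ p := by
  have hF := D.hF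
  have hFT := D.hFT
  by_contra hcon
  push Not at hcon
  have key : ∀ p, ∃ a ∈ Icc p (p + 2 * F), Act γ a := by
    intro p
    by_contra hno
    push Not at hno
    obtain ⟨s, hs, hne⟩ := hcon p
    exact hne (const_of_no_act hno ⟨le_refl _, by linarith⟩ hs)
  obtain ⟨a, ha, ha'⟩ := key 0
  obtain ⟨b, hb, hb'⟩ := key (3 * F)
  obtain ⟨d, hd, hd'⟩ := key (6 * F)
  exact D.three_active_false ha' hb' hd' (by linarith [ha.2, hb.1]) (by linarith [hb.2, hd.1])
    (by linarith [ha.1, hd.2])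

/-- The main contradiction: a constancy arc in a nonconstant curve. -/
lemma bubble (D : LabelData γ Q T F) {p : ℝ} (hp : ∀ s ∈ Icc p (p + 2 * F), γ s = γ p)
    (hnc : ∀ b, ¬ ∀ s ∈ Icc b (b + T), γ s = γ b) : False := by
  have hF := D.hF
  have hT := D.hT
  have hFT := D.hFT
  obtain ⟨c, hc⟩ : ∃ c, c = γ p := ⟨_, rfl⟩
  rw [← hc] at hp
  obtain ⟨j₁, hj₁, hj₁c, hj₁a⟩ := exists_end_right D.cont (x := p) (r := p + T) (by linarith) (hnc p)
  rw [← hc] at hj₁c hj₁a
  have hl : ¬ ∀ s ∈ Icc (p - T) p, γ s = γ p := by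
    intro h
    apply hnc (p - T)
    intro s hs
    rw [h s ⟨hs.1, by linarith [hs.2]⟩, D.per_sub]
  obtain ⟨j₀, hj₀, hj₀c, hj₀a⟩ := exists_end_left D.cont (x := p) (l := p - T) (by linarith) hl
  rw [← hc] at hj₀c hj₀a
  have hj₁2 : p + 2 * F ≤ j₁ := by
    by_contra hcon
    push Not at hcon
    obtain ⟨s, hs, hne⟩ := hj₁a (p + 2 * F - j₁) (by linarith)
    exact hne (hp s ⟨by linarith [hj₁.1, hs.1], by linarith [hs.2]⟩)
  have hj₀p : j₀ ≤ p := hj₀.2
  have hJ : ∀ s ∈ Icc j₀ j₁, γ s = c := by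
    intro s hs
    rcases le_total s p with h | h
    · exact hj₀c s ⟨hs.1, h⟩
    · exact hj₁c s ⟨h, hs.2⟩
  have hj₀γ : γ j₀ = c := hJ j₀ ⟨le_refl _, by linarith⟩
  have hj₁γ : γ j₁ = c := hJ j₁ ⟨by linarith, le_refl _⟩
  have hjT : j₁ - j₀ < T := by
    by_contra hcon
    push Not at hcon
    apply hnc j₀
    intro s hs
    rw [hj₀γ]
    exact hJ s ⟨hs.1, by linarith [hs.2]⟩
  have hb₁act : Act γ j₀ := act_of_left hj₀γ hj₀a
  have hj₁act : Act γ j₁ := act_of_right hj₁γ hj₁a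
  have hb₀act : Act γ (j₁ - T) := D.act_sub hj₁act
  have hγb₀ : γ (j₁ - T) = c := by rw [D.per_sub, hj₁γ]
  obtain ⟨y, hy⟩ : ∃ y, y = p + F := ⟨_, rfl⟩
  have hyγ : γ y = c := hJ y ⟨by linarith, by linarith⟩
  have hfar : ∀ z ∈ Icc (j₁ - T) j₀, γ z ≠ c → Q z y ≠ 0 := by
    intro z hz hne
    have := D.far y z (by linarith [hz.2]) (by linarith [hz.1]) (by rw [hyγ]; exact hne.symm)
    rw [D.anti z y] at this
    exact neg_ne_zero.1 this
  have hsign_z : ∀ z ∈ Ico (j₁ - T) j₀, γ z = c → ∃ σ, SignAt γ Q z j₀ σ := by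
    intro z hz hzc
    obtain ⟨σ, hσ⟩ := D.exists_signAt (x := z + T) (b := j₀) hb₁act (by linarith [hz.1])
      (by linarith [hz.2]) (by rw [D.per, hzc, hj₀γ])
    have := D.signAt_sub hσ
    rw [add_sub_cancel_right] at this
    exact ⟨σ, this⟩
  -- the sign of `Q · y` is constant on the gap
  have hN : ∀ x ∈ Ioo (j₁ - T) j₀, ∀ x' ∈ Ioo (j₁ - T) j₀, γ x ≠ c → γ x' ≠ c → ∀ σ,
      (σ = 1 ∨ σ = -1) → 0 < σ * Q x y → 0 < σ * Q x' y := by
    intro x hx x' hx' hxc hxc' σ hσ hpos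
    have hl' : j₁ - T < min x x' := lt_min hx.1 hx'.1
    have hr' : max x x' < j₀ := max_lt hx.2 hx'.2
    have hxI : x ∈ Icc (min x x') (max x x') := ⟨min_le_left _ _, le_max_left _ _⟩
    have hxI' : x' ∈ Icc (min x x') (max x x') := ⟨min_le_right _ _, le_max_right _ _⟩
    have hI : ∀ z ∈ Icc (min x x') (max x x'), z ∈ Ioo (j₁ - T) j₀ := fun z hz =>
      ⟨lt_of_lt_of_le hl' hz.1, lt_of_le_of_lt hz.2 hr'⟩
    have hR := const_on_Icc (fun z σ => (γ z ≠ c ∧ 0 < σ * Q z y) ∨ (γ z = c ∧ SignAt γ Q z j₀ σ))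
      ?_ ?_ ?_ hxI hxI' hσ (Or.inl ⟨hxc, hpos⟩)
    · rcases hR with h | h
      · exact h.2
      · exact absurd h.1 hxc'
    · intro z hz
      have hz' := hI z hz
      by_cases hzc : γ z = c
      · obtain ⟨σ, hs⟩ := hsign_z z ⟨hz'.1.le, hz'.2⟩ hzc
        exact ⟨σ, hs.1, Or.inr ⟨hzc, hs⟩⟩
      · have hq := hfar z ⟨hz'.1.le, hz'.2.le⟩ hzc
        rcases lt_or_gt_of_ne hq with hneg | hpos'
        · exact ⟨-1, Or.inr rfl, Or.inl ⟨hzc, by linarith⟩⟩
        · exact ⟨1, Or.inl rfl, Or.inl ⟨hzc, by linarith⟩⟩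
    · intro z _ σ σ' hσ hσ' h1 h2
      rcases h1 with ⟨h1, h1'⟩ | ⟨h1, h1'⟩ <;> rcases h2 with ⟨h2, h2'⟩ | ⟨h2, h2'⟩
      · exact sign_eq hσ hσ' h1' h2'
      · exact absurd h2 h1
      · exact absurd h1 h2
      · exact signAt_unique hb₁act h1' h2'
    · intro z hz σ hσ hRz
      have hz' := hI z hz
      rcases hRz with ⟨hzc, hq⟩ | ⟨hzc, hs⟩
      · have h1 : ∀ᶠ z' in 𝓝 z, γ z' ≠ c := D.cont.continuousAt.eventually_ne hzc
        have h2 : ∀ᶠ z' in 𝓝 z, 0 < σ * Q z' y :=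
          (continuous_const.mul (D.continuous_Q_left y)).continuousAt.eventually (lt_mem_nhds hq)
        filter_upwards [h1, h2] with z' h3 h4 _
        exact Or.inl ⟨h3, h4⟩
      · obtain ⟨_, ε, hε, hbox⟩ := id hs
        have hcl : ∀ y'' ∈ Icc j₀ y, ∃ ε > 0, ∀ x' y', |x' - z| < ε → |y' - y''| < ε → γ x' ≠ γ y' →
            Q x' y' ≠ 0 := by
          intro y'' hy''
          exact D.cl' (by linarith [hy''.1, hz'.2]) (by linarith [hy''.2, hz'.1])
            (by rw [hzc, hJ y'' ⟨hy''.1, by linarith [hy''.2]⟩])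
        obtain ⟨ε₂, hε₂, ht⟩ := D.tube_right hcl
        have hn : Metric.ball z (min ε ε₂) ∈ 𝓝 z := Metric.ball_mem_nhds _ (lt_min hε hε₂)
        filter_upwards [hn] with z' hz'b hz'I
        have hd : |z' - z| < min ε ε₂ := by rwa [Metric.mem_ball, Real.dist_eq] at hz'b
        have hd1 := lt_of_lt_of_le hd (min_le_left _ _)
        have hd2 := lt_of_lt_of_le hd (min_le_right _ _)
        have hz'' := hI z' hz'I
        by_cases hz'c : γ z' = c
        · right
          obtain ⟨σ', hσ'⟩ := hsign_z z' ⟨hz''.1.le, hz''.2⟩ hz'c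
          have := signAt_near_eq hb₁act hs hσ' hbox hε hd1
          exact ⟨hz'c, by rwa [this]⟩
        · left
          refine ⟨hz'c, ?_⟩
          have h0 : 0 < σ * Q z' j₀ := hbox z' j₀ hd1 (by simpa using hε) (by rw [hj₀γ]; exact hz'c)
          refine sign_walk (D.continuous_Q_right z') ?_ h0
          rw [uIcc_of_le (by linarith)]
          intro y'' hy''
          exact ht z' hd2 y'' hy'' (by rw [hJ y'' ⟨hy''.1, by linarith [hy''.2]⟩]; exact hz'c)
  -- the box at the two ends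
  obtain ⟨ε, hε, σ₀, hσ₀, hbox⟩ := D.ll j₀ (j₁ - T) (by linarith) (by linarith)
    (by rw [hj₀γ, hγb₀]) hb₁act hb₀act
  have hgap : 0 < j₀ - (j₁ - T) := by linarith
  -- the point close to the right end of the gap
  have hcl1 : ∀ y'' ∈ Icc y j₁, ∃ ε > 0, ∀ x' y', |x' - j₀| < ε → |y' - y''| < ε → γ x' ≠ γ y' →
      Q x' y' ≠ 0 := by
    intro y'' hy''
    exact D.cl' (by linarith [hy''.1]) (by linarith [hy''.2])
      (by rw [hj₀γ, hJ y'' ⟨by linarith [hy''.1], hy''.2⟩])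
  obtain ⟨ε₂, hε₂, ht1⟩ := D.tube_right hcl1
  obtain ⟨s, hs, hsc⟩ := hj₀a (min (min ε ε₂) (j₀ - (j₁ - T)))
    (lt_min (lt_min hε hε₂) hgap)
  have hm1 := min_le_left (min ε ε₂) (j₀ - (j₁ - T))
  have hm2 := min_le_right (min ε ε₂) (j₀ - (j₁ - T))
  have hm3 := min_le_left ε ε₂
  have hm4 := min_le_right ε ε₂
  have hs1 : j₁ - T < s := by linarith [hs.1]
  have hsd : |s - j₀| < min ε ε₂ := by
    rw [abs_lt]
    constructor <;> linarith [hs.1, hs.2, lt_min hε hε₂]
  have hsd1 := lt_of_lt_of_le hsd hm3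
  have hsd2 := lt_of_lt_of_le hsd hm4
  have hsR : 0 < σ₀ * Q s y := by
    have h0 := hbox s (j₁ - T) hsd1 (by simpa using hε) (by rw [hγb₀]; exact hsc)
    have e : Q s (j₁ - T) = Q s j₁ := by
      have := D.perQ2 s (j₁ - T)
      rw [sub_add_cancel] at this
      exact this.symm
    rw [e] at h0
    refine sign_walk (D.continuous_Q_right s) ?_ h0
    rw [uIcc_of_ge (by linarith)]
    intro y'' hy''
    exact ht1 s hsd2 y'' hy'' (by rw [hJ y'' ⟨by linarith [hy''.1], hy''.2⟩]; exact hsc)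
  -- the point close to the left end of the gap
  have hcl2 : ∀ y'' ∈ Icc j₀ y, ∃ ε > 0, ∀ x' y', |x' - j₁| < ε → |y' - y''| < ε → γ x' ≠ γ y' →
      Q x' y' ≠ 0 := by
    intro y'' hy''
    exact D.cl j₁ y'' (by linarith [hy''.2]) (by linarith [hy''.1])
      (by rw [hj₁γ, hJ y'' ⟨hy''.1, by linarith [hy''.2]⟩])
  obtain ⟨ε₄, hε₄, ht2⟩ := D.tube_right hcl2
  obtain ⟨s', hs', hs'c⟩ := hj₁a (min (min ε ε₄) (j₀ - (j₁ - T)))
    (lt_min (lt_min hε hε₄) hgap)
  have hm1' := min_le_left (min ε ε₄) (j₀ - (j₁ - T))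
  have hm2' := min_le_right (min ε ε₄) (j₀ - (j₁ - T))
  have hm3' := min_le_left ε ε₄
  have hm4' := min_le_right ε ε₄
  have hsd' : |s' - j₁| < min ε ε₄ := by
    rw [abs_lt]
    constructor <;> linarith [hs'.1, hs'.2, lt_min hε hε₄]
  have hsd1' := lt_of_lt_of_le hsd' hm3'
  have hsd2' := lt_of_lt_of_le hsd' hm4'
  have hxLc : γ (s' - T) ≠ c := by rw [D.per_sub]; exact hs'c
  have hsL : 0 < (-σ₀) * Q (s' - T) y := by
    have h0 := hbox j₀ (s' - T) (by simpa using hε)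
      (by
        have e : s' - T - (j₁ - T) = s' - j₁ := by ring
        rwa [e])
      (by rw [hj₀γ]; exact hxLc.symm)
    rw [D.anti (s' - T) j₀, D.perQ_sub] at h0
    rw [D.perQ_sub]
    have h1 : 0 < (-σ₀) * Q s' j₀ := by linarith
    refine sign_walk (D.continuous_Q_right s') ?_ h1
    rw [uIcc_of_le (by linarith)]
    intro y'' hy''
    exact ht2 s' hsd2' y'' hy'' (by rw [hJ y'' ⟨hy''.1, by linarith [hy''.2]⟩]; exact hs'c)
  have hfin := hN s ⟨hs1, hs.2⟩ (s' - T) ⟨by linarith [hs'.1], by linarith [hs'.2]⟩ hsc hxLc σ₀ hσ₀ hsR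
  linarith

/-- The combinatorial lemma: the curve is constant. -/
theorem const (D : LabelData γ Q T F) (x y : ℝ) : γ x = γ y := by
  obtain ⟨p, hp⟩ := D.exists_arc
  by_contra hne
  refine D.bubble hp ?_
  intro b hb
  apply hne
  rw [D.const_of_period hb x, D.const_of_period hb y]

end LabelData

end Vale.Agent.Lib.P084.Dim3N
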