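import Vale.Agent.Lib.P084.Dim3N.Param

/-! The good set is open, for a target and a source of dimension three, without smoothness. -/

set_option linter.unusedSectionVars false

namespace Vale.Agent.Lib.P084.Dim3N

open Set Filter Topology Metric Vale.Agent.Lib.P084.Dim4 Vale.Agent.Lib.P084.Dim3

variable {U V : Type*} [NormedAddCommGroup U] [NormedSpace ℝ U] [NormedAddCommGroup V]
  [NormedSpace ℝ V]

lemma eθ_sep : ∃ c₀ > 0, ∀ x y : ℝ, y + Real.pi / 9 ≤ x → x ≤ y + Real.pi - Real.pi / 9 →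
    c₀ ≤ ‖eθ x - eθ y‖ ∧ c₀ ≤ ‖eθ x - eθ (y + Real.pi)‖ := by
  have hpi := Real.pi_pos
  have hcos : Real.cos (Real.pi / 9) < 1 := by
    have := Real.cos_lt_cos_of_nonneg_of_le_pi (x := 0) (y := Real.pi / 9) (le_refl _)
      (by linarith) (by linarith)
    rwa [Real.cos_zero] at this
  have hc0 : ‖eθ (Real.pi / 9) - eθ 0‖ ^ 2 = 2 - 2 * Real.cos (Real.pi / 9) := by
    rw [eθ_norm_sq_sub, sub_zero]
  have hpos : 0 < ‖eθ (Real.pi / 9) - eθ 0‖ := by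
    have h1 : 0 < ‖eθ (Real.pi / 9) - eθ 0‖ ^ 2 := by
      rw [hc0]
      linarith
    exact lt_of_le_of_ne (norm_nonneg _) (fun h => by rw [← h] at h1; norm_num at h1)
  refine ⟨_, hpos, fun x y h1 h2 => ?_⟩
  have h3 : Real.cos (x - y) ≤ Real.cos (Real.pi / 9) :=
    Real.cos_le_cos_of_nonneg_of_le_pi (by linarith) (by linarith) (by linarith)
  have h4 : - Real.cos (Real.pi / 9) ≤ Real.cos (x - y) := by
    have := Real.cos_le_cos_of_nonneg_of_le_pi (x := x - y) (y := Real.pi - Real.pi / 9)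
      (by linarith) (by linarith) (by linarith)
    rwa [Real.cos_pi_sub] at this
  constructor
  · refine (sq_le_sq₀ hpos.le (norm_nonneg _)).1 ?_
    rw [hc0, eθ_norm_sq_sub]
    linarith
  · refine (sq_le_sq₀ hpos.le (norm_nonneg _)).1 ?_
    rw [hc0, eθ_norm_sq_sub]
    have e : x - (y + Real.pi) = (x - y) - Real.pi := by ring
    rw [e, Real.cos_sub_pi]
    linarith

lemma eθ_inj {x y : ℝ} (h1 : y < x) (h2 : x < y + Real.pi) :
    eθ x ≠ eθ y ∧ eθ x ≠ eθ (y + Real.pi) := by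
  have hpi := Real.pi_pos
  constructor
  · intro h
    have h3 := eθ_norm_sq_sub x y
    rw [h, sub_self, norm_zero] at h3
    have := Real.cos_lt_cos_of_nonneg_of_le_pi (x := 0) (y := x - y) (le_refl _)
      (by linarith) (by linarith)
    rw [Real.cos_zero] at this
    norm_num at h3
    linarith
  · intro h
    have h3 := eθ_norm_sq_sub x (y + Real.pi)
    rw [h, sub_self, norm_zero] at h3
    have e : y + Real.pi - (y + Real.pi) = 0 := by ring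
    have e2 : x - (y + Real.pi) = (x - y) - Real.pi := by ring
    rw [e2, Real.cos_sub_pi] at h3
    have := Real.cos_lt_cos_of_nonneg_of_le_pi (x := x - y) (y := Real.pi) (by linarith)
      (le_refl _) (by linarith)
    rw [Real.cos_pi] at this
    norm_num at h3
    linarith

/-- Openness of the good set, without smoothness. -/
theorem good_open_ns [FiniteDimensional ℝ U] [StrictConvexSpace ℝ U] [FiniteDimensional ℝ V]
    [StrictConvexSpace ℝ V] {g : U → V} (hdimU : Module.finrank ℝ U = 3)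
    (hdimV : Module.finrank ℝ V = 3) (hg : SphereIso g) {w₀ : U} (hG : Good g w₀) (hw₀ : w₀ ≠ 0)
    (hw2 : ‖w₀‖ < 2) : ∀ᶠ w in 𝓝 w₀, Good g w := by
  -- coordinates on the target
  let b := Module.finBasisOfFinrankEq ℝ V hdimV
  let c : Fin 3 → V →ₗ[ℝ] ℝ := fun i => b.coord i
  have hc : ∀ v, (∀ i, c i v = 0) → v = 0 := by
    intro v hv
    apply b.ext_elem
    intro i
    simpa [c] using hv i
  have hcc : ∀ i, Continuous (c i) := fun i => LinearMap.continuous_of_finiteDimensional _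
  -- the projection and the functional
  obtain ⟨π₀, hker₀, hsurj₀⟩ : ∃ π₀ : U →L[ℝ] E2, (∀ x, π₀ x = 0 ↔ ∃ a : ℝ, x = a • w₀) ∧
      Function.Surjective π₀ := exists_proj (k := 1) hw₀ (by omega)
  have hπw₀ : π₀ w₀ = 0 := (hker₀ w₀).2 ⟨1, by simp⟩
  obtain ⟨ℓ, hℓ⟩ := SeparatingDual.exists_eq_one (R := ℝ) hw₀
  have hnonempty : (Ew w₀).Nonempty := Ew_nonempty3 (by omega) hw2
  -- the lower bound of the projection
  obtain ⟨ρ, hρ, hρ₀⟩ : ∃ ρ > 0, ∀ s ∈ Ew w₀, ρ < ‖π₀ s‖ := by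
    obtain ⟨s, hs, hmin⟩ := (isCompact_Ew w₀).exists_isMinOn hnonempty
      (f := fun s => ‖π₀ s‖) (π₀.continuous.norm.continuousOn)
    have h1 : 0 < ‖π₀ s‖ := norm_pos_iff.2 (pi_ne_zero hw2 π₀ hker₀ hs)
    refine ⟨‖π₀ s‖ / 2, by linarith, fun t ht => ?_⟩
    have h2 : ‖π₀ s‖ ≤ ‖π₀ t‖ := hmin ht
    linarith
  have evρ : ∀ᶠ w in 𝓝 w₀, ∀ s ∈ Ew w, ρ < ‖projW π₀ ℓ w s‖ := by
    apply ev_on_Ew
    intro s₀ hs₀
    have hc1 : ContinuousAt (fun z : U × U => ‖projW π₀ ℓ z.1 z.2‖) (w₀, s₀) := by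
      simp only [projW_apply]
      have h1 : ContinuousAt (fun z : U × U => (ℓ z.1)⁻¹) (w₀, s₀) :=
        ContinuousAt.inv₀ (by fun_prop) (by simp [hℓ])
      have h2 : ContinuousAt (fun z : U × U => z.2 - ((ℓ z.1)⁻¹ * ℓ z.2) • z.1) (w₀, s₀) := by
        refine continuousAt_snd.sub (ContinuousAt.smul (h1.mul (by fun_prop)) continuousAt_fst)
      exact (π₀.continuous.continuousAt.comp h2).norm
    have hval : ‖projW π₀ ℓ w₀ s₀‖ = ‖π₀ s₀‖ := by
      rw [projW_apply, map_sub, map_smul, hπw₀, smul_zero, sub_zero]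
    have h3 := hc1.eventually (lt_mem_nhds (show ρ < ‖projW π₀ ℓ w₀ s₀‖ by
      rw [hval]
      exact hρ₀ s₀ hs₀))
    filter_upwards [h3] with z hz _
    exact hz
  -- the uniform convexity constant
  obtain ⟨m₀, hm₀, hm₀s⟩ : ∃ m₀ > 0, ∀ s ∈ Ew w₀, ‖s - (1 / 2 : ℝ) • w₀‖ < 1 - m₀ := by
    obtain ⟨s, hs, hmax⟩ := (isCompact_Ew w₀).exists_isMaxOn hnonempty
      (f := fun s => ‖s - (1 / 2 : ℝ) • w₀‖) (by fun_prop)
    have hlt : ‖s - (1 / 2 : ℝ) • w₀‖ < 1 := by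
      have hne : s ≠ s - w₀ := by
        intro h
        exact hw₀ (sub_eq_self.1 h.symm)
      have h1 := norm_combo_lt_of_ne (a := 1 / 2) (b := 1 / 2) hs.1.le hs.2.le hne (by norm_num)
        (by norm_num) (by norm_num)
      have e : (1 / 2 : ℝ) • s + (1 / 2 : ℝ) • (s - w₀) = s - (1 / 2 : ℝ) • w₀ := by
        have h2 : s = (1 / 2 : ℝ) • s + (1 / 2 : ℝ) • s := by
          rw [← add_smul]
          norm_num
        rw [smul_sub]
        nth_rewrite 3 [h2]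
        abel
      rwa [e] at h1
    refine ⟨(1 - ‖s - (1 / 2 : ℝ) • w₀‖) / 2, by linarith, fun t ht => ?_⟩
    have h2 : ‖t - (1 / 2 : ℝ) • w₀‖ ≤ ‖s - (1 / 2 : ℝ) • w₀‖ := hmax ht
    linarith
  have evm : ∀ᶠ w in 𝓝 w₀, ∀ s ∈ Ew w, ‖s - (1 / 2 : ℝ) • w‖ < 1 - m₀ := by
    apply ev_on_Ew
    intro s₀ hs₀
    have hc1 : ContinuousAt (fun z : U × U => ‖z.2 - (1 / 2 : ℝ) • z.1‖) (w₀, s₀) := by fun_prop
    filter_upwards [hc1.eventually (gt_mem_nhds (hm₀s s₀ hs₀))] with z hz _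
    exact hz
  -- the midpoint curve is uniformly close to its value at `w₀`
  obtain ⟨s₁, hs₁⟩ := hnonempty
  obtain ⟨G₀, hG₀⟩ : ∃ G₀, G₀ = g s₁ + g (w₀ - s₁) := ⟨_, rfl⟩
  have evδ : ∀ ε > 0, ∀ᶠ w in 𝓝 w₀, ∀ s ∈ Ew w, ‖(g s + g (w - s)) - G₀‖ < ε := by
    intro ε hε
    apply ev_on_Ew
    intro s₀ hs₀
    have hGs : g s₀ + g (w₀ - s₀) = G₀ := by rw [hG₀]; exact hG s₀ hs₀ s₁ hs₁
    have hb : Metric.ball ((w₀, s₀) : U × U) (ε / 4) ∈ 𝓝 ((w₀, s₀) : U × U) :=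
      Metric.ball_mem_nhds _ (by linarith)
    filter_upwards [hb] with z hz hzE
    have h1 := Kf_lip hg hzE hs₀
    rw [hGs] at h1
    rw [Metric.mem_ball, Prod.dist_eq, dist_eq_norm, dist_eq_norm] at hz
    have h2 := lt_of_le_of_lt (le_max_left _ _) hz
    have h3 := lt_of_le_of_lt (le_max_right _ _) hz
    linarith
  -- the constants
  obtain ⟨c₀, hc₀, hsep⟩ := eθ_sep
  obtain ⟨Λ, hΛ⟩ : ∃ Λ, Λ = ‖π₀‖ * (1 + 4 * ‖ℓ‖) := ⟨_, rfl⟩
  have hΛ0 : 0 ≤ Λ := by rw [hΛ]; positivity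
  obtain ⟨L, hL⟩ : ∃ L, L = 2 * Λ / ρ + 1 := ⟨_, rfl⟩
  have hL0 : 0 < L := by
    rw [hL]
    positivity
  obtain ⟨K, hK⟩ : ∃ K, K = 4 / m₀ + 3 := ⟨_, rfl⟩
  have hK0 : 0 < K := by
    rw [hK]
    positivity
  have hw₀n : 0 < ‖w₀‖ := norm_pos_iff.2 hw₀
  obtain ⟨ε, hε⟩ : ∃ ε, ε = min (min (m₀ / 2) (‖w₀‖ / 8)) (c₀ / L / (4 * K)) := ⟨_, rfl⟩
  have hε0 : 0 < ε := by
    rw [hε]
    exact lt_min (lt_min (by linarith) (by linarith)) (by positivity)
  have hε1 : ε ≤ m₀ / 2 := by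
    rw [hε]
    exact (min_le_left _ _).trans (min_le_left _ _)
  have hε2 : ε ≤ ‖w₀‖ / 8 := by
    rw [hε]
    exact (min_le_left _ _).trans (min_le_right _ _)
  have hε3 : K * (2 * ε) < c₀ / L := by
    have h1 : ε ≤ c₀ / L / (4 * K) := by
      rw [hε]
      exact min_le_right _ _
    have h2 : 0 < c₀ / L := by positivity
    have h3 : K * (2 * (c₀ / L / (4 * K))) = c₀ / L / 2 := by
      field_simp
      ring
    have h4 : K * (2 * ε) ≤ K * (2 * (c₀ / L / (4 * K))) := by gcongr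
    linarith
  -- eventual conditions on `w`
  have ev0 : ∀ᶠ w in 𝓝 w₀, w ≠ 0 := isOpen_ne.mem_nhds hw₀
  have ev2 : ∀ᶠ w in 𝓝 w₀, ‖w‖ < 2 := (isOpen_lt continuous_norm continuous_const).mem_nhds hw2
  have evℓ : ∀ᶠ w in 𝓝 w₀, 1 / 2 < ℓ w := by
    have h1 : ContinuousAt (fun w => ℓ w) w₀ := ℓ.continuous.continuousAt
    exact h1.eventually (lt_mem_nhds (by show 1 / 2 < ℓ w₀; rw [hℓ]; norm_num))
  have evn : ∀ᶠ w in 𝓝 w₀, ‖w₀‖ / 2 < ‖w‖ := by
    have h1 : ContinuousAt (fun w : U => ‖w‖) w₀ := continuous_norm.continuousAt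
    exact h1.eventually (lt_mem_nhds (by linarith))
  filter_upwards [ev0, ev2, evℓ, evn, evρ, evm, evδ ε hε0] with w hw0 hw2' hℓw hwn hρw hmw hδw
  have hP := proj_projW hker₀ hsurj₀ hℓ hw0 hw2' (by linarith : (0 : ℝ) < ℓ w).ne'
  have hnp : ∀ v, ‖projW π₀ ℓ w v‖ ≤ Λ * ‖v‖ := by
    rw [hΛ]
    exact norm_projW_le π₀ ℓ hℓw.le hw2'
  obtain ⟨Ψ, hΨ⟩ := exists_circleParam hP hρ hΛ0 (fun s hs => (hρw s hs).le) hnp
  have hlip : ∀ x y, ‖eθ x - eθ y‖ ≤ L * ‖Ψ x - Ψ y‖ := by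
    intro x y
    refine (hΨ.lip x y).trans ?_
    rw [hL]
    apply mul_le_mul_of_nonneg_right _ (norm_nonneg _)
    linarith
  have hone : ∀ θ, ‖Ψ θ‖ = 1 := fun θ => (hΨ.mem θ).1
  have hgd : ∀ x y, ‖g (Ψ x) - g (Ψ y)‖ = ‖Ψ x - Ψ y‖ :=
    fun x y => hg.dist_eq _ _ (hone x) (hone y)
  have hsep' : ∀ x y, y + Real.pi / 9 ≤ x → x ≤ y + Real.pi - Real.pi / 9 →
      c₀ / L ≤ ‖g (Ψ x) - g (Ψ y)‖ ∧ c₀ / L ≤ ‖g (Ψ x) - g (Ψ (y + Real.pi))‖ := by
    intro x y h1 h2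
    obtain ⟨h3, h4⟩ := hsep x y h1 h2
    rw [hgd, hgd, div_le_iff₀' hL0, div_le_iff₀' hL0]
    exact ⟨h3.trans (hlip x y), h4.trans (hlip x (y + Real.pi))⟩
  have egam : ∀ θ, gam (fun θ => g (Ψ θ)) Real.pi θ = g (Ψ θ) + g (w - Ψ θ) := by
    intro θ
    unfold gam
    simp only
    rw [hΨ.shift]
  have hmid : ∀ θ, ‖gam (fun θ => g (Ψ θ)) Real.pi θ - G₀‖ < ε := by
    intro θ
    rw [egam]
    exact hδw (Ψ θ) (hΨ.mem θ)
  have C : CircleData (fun θ => g (Ψ θ)) Real.pi ‖w‖ m₀ := {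
    hT := Real.pi_pos
    cont := (SphereIso.continuousOn hg).comp_continuous hΨ.cont hone
    unit := fun θ => hg.norm_one _ (hone θ)
    per := fun θ => by
      rw [hΨ.shift, hΨ.shift, sub_sub_cancel]
    iso := fun x y => by
      rw [hgd, hgd, hΨ.shift, hΨ.shift, sub_sub_sub_cancel_left, norm_sub_rev]
    sum := fun θ => by
      rw [hΨ.shift]
      exact Kf_norm hg (hΨ.mem θ)
    hr := norm_pos_iff.2 hw0
    inj := fun x y h1 h2 => by
      obtain ⟨he1, he2⟩ := eθ_inj h1 h2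
      constructor
      · intro h
        have h' : g (Ψ x) = g (Ψ y) := h
        apply he1
        have h3 := hlip x y
        rw [← hgd, h', sub_self, norm_zero, mul_zero] at h3
        exact sub_eq_zero.1 (norm_le_zero_iff.1 h3)
      · intro h
        have h' : g (Ψ x) = g (Ψ (y + Real.pi)) := h
        apply he2
        have h3 := hlip x (y + Real.pi)
        rw [← hgd, h', sub_self, norm_zero, mul_zero] at h3
        exact sub_eq_zero.1 (norm_le_zero_iff.1 h3)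
    hm := hm₀
    hm2 := fun θ => by
      show ‖g (Ψ θ) - g (Ψ (θ + Real.pi))‖ / 2 ≤ 1 - m₀
      rw [hgd, hΨ.shift]
      have e : Ψ θ - (w - Ψ θ) = (2 : ℝ) • (Ψ θ - (1 / 2 : ℝ) • w) := by
        rw [smul_sub, smul_smul]
        norm_num
        rw [two_smul]
        abel
      rw [e, norm_smul]
      norm_num
      have := hmw _ (hΨ.mem θ)
      linarith
    far := fun x y h1 h2 => by
      obtain ⟨h3, h4⟩ := hsep' x y h1 h2
      have h5 : ‖gam (fun θ => g (Ψ θ)) Real.pi x - gam (fun θ => g (Ψ θ)) Real.pi y‖ < 2 * ε := by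
        have e : gam (fun θ => g (Ψ θ)) Real.pi x - gam (fun θ => g (Ψ θ)) Real.pi y =
            (gam (fun θ => g (Ψ θ)) Real.pi x - G₀) - (gam (fun θ => g (Ψ θ)) Real.pi y - G₀) := by
          abel
        rw [e]
        have := norm_sub_le (gam (fun θ => g (Ψ θ)) Real.pi x - G₀)
          (gam (fun θ => g (Ψ θ)) Real.pi y - G₀)
        linarith [hmid x, hmid y]
      have h6 : K * ‖gam (fun θ => g (Ψ θ)) Real.pi x - gam (fun θ => g (Ψ θ)) Real.pi y‖ ≤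
          K * (2 * ε) := mul_le_mul_of_nonneg_left h5.le hK0.le
      rw [← hK]
      refine ⟨by linarith, by linarith, ?_, ?_⟩
      · show _ < ‖g (Ψ x) - g (Ψ y)‖
        linarith
      · show _ < ‖g (Ψ x) - g (Ψ (y + Real.pi))‖
        linarith
  }
  intro s hs t ht
  obtain ⟨x, rfl⟩ := hΨ.surj s hs
  obtain ⟨y, rfl⟩ := hΨ.surj t ht
  have h := C.rigid hc hcc x y
  rw [egam, egam] at h
  exact h

end Vale.Agent.Lib.P084.Dim3N
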