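import Vale.Agent.Lib.P084.Dim3N.Label
import Vale.Agent.Lib.P084.Dim3N.Box
import Vale.Agent.Lib.P084.Dim3N.Chord

/-! A closed curve of unit vectors in a three-dimensional strictly convex space, with an
isometric half-period shift: if the midpoint curve moves little then it does not move at all. -/

namespace Vale.Agent.Lib.P084.Dim3N

open Set Filter Topology

variable {V : Type*} [NormedAddCommGroup V] [NormedSpace ℝ V]

/-- The triple product in given coordinates. -/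
def dt (c : Fin 3 → V →ₗ[ℝ] ℝ) (u v w : V) : ℝ :=
  c 0 u * (c 1 v * c 2 w - c 2 v * c 1 w) - c 1 u * (c 0 v * c 2 w - c 2 v * c 0 w)
    + c 2 u * (c 0 v * c 1 w - c 1 v * c 0 w)

/-- Vanishing triple product gives a linear dependence. -/
lemma dt_dep {c : Fin 3 → V →ₗ[ℝ] ℝ} (hc : ∀ v, (∀ i, c i v = 0) → v = 0) {u v w : V}
    (h : dt c u v w = 0) :
    ∃ α β ζ : ℝ, (α ≠ 0 ∨ β ≠ 0 ∨ ζ ≠ 0) ∧ α • u + β • v + ζ • w = 0 := by
  let M : Matrix (Fin 3) (Fin 3) ℝ :=
    !![c 0 u, c 1 u, c 2 u; c 0 v, c 1 v, c 2 v; c 0 w, c 1 w, c 2 w]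
  have hdet : M.det = 0 := by
    rw [Matrix.det_fin_three]
    simp only [M, Matrix.of_apply, Matrix.cons_val', Matrix.cons_val_zero, Matrix.cons_val_one,
      Matrix.cons_val, Matrix.cons_val_fin_one]
    unfold dt at h
    linarith
  obtain ⟨x, hx, hx0⟩ := Matrix.exists_vecMul_eq_zero_iff.2 hdet
  refine ⟨x 0, x 1, x 2, ?_, ?_⟩
  · by_contra hcon
    push Not at hcon
    apply hx
    funext i
    fin_cases i
    · exact hcon.1
    · exact hcon.2.1
    · exact hcon.2.2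
  · apply hc
    intro i
    have h1 := congrFun hx0 i
    simp only [Matrix.vecMul, dotProduct, Fin.sum_univ_three, Pi.zero_apply] at h1
    simp only [map_add, map_smul, smul_eq_mul]
    fin_cases i
    · simpa [M] using h1
    · simpa [M] using h1
    · simpa [M] using h1

/-- Parallelism of two Birkhoff orthogonal vectors from a vanishing triple product. -/
lemma orth_pair [StrictConvexSpace ℝ V] {c : Fin 3 → V →ₗ[ℝ] ℝ}
    (hc : ∀ v, (∀ i, c i v = 0) → v = 0) {p₁ p₃ e : V} (h1 : BOrth p₁ e) (h3 : BOrth p₃ e)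
    (he : e ≠ 0) (h30 : p₃ ≠ 0) (h : dt c p₃ e p₁ = 0) : ∃ κ : ℝ, p₁ = κ • p₃ := by
  obtain ⟨α, β, ζ, hne, hz⟩ := dt_dep hc h
  by_cases hβ : β = 0
  · have hz' : α • p₃ + ζ • p₁ = 0 := by
      rw [hβ, zero_smul, add_zero] at hz
      exact hz
    by_cases hζ : ζ = 0
    · exfalso
      rw [hζ, zero_smul, add_zero] at hz'
      have hα : α ≠ 0 := by
        rcases hne with h' | h' | h'
        · exact h'
        · exact absurd hβ h'
        · exact absurd hζ h'
      exact h30 ((smul_eq_zero.1 hz').resolve_left hα)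
    · refine ⟨-(α / ζ), ?_⟩
      have h2 : ζ • p₁ = - (α • p₃) := eq_neg_of_add_eq_zero_right hz'
      have h4 : p₁ = ζ⁻¹ • (ζ • p₁) := by rw [smul_smul, inv_mul_cancel₀ hζ, one_smul]
      rw [h4, h2, smul_neg, smul_smul, neg_smul]
      congr 2
      field_simp
  · have he' : e = (-(ζ / β)) • p₁ + (-(α / β)) • p₃ := by
      have h2 : β • e = - (α • p₃ + ζ • p₁) := by
        have : β • e = (α • p₃ + β • e + ζ • p₁) - (α • p₃ + ζ • p₁) := by abel
        rw [this, hz, zero_sub]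
      have h4 : e = β⁻¹ • (β • e) := by rw [smul_smul, inv_mul_cancel₀ hβ, one_smul]
      rw [h4, h2, smul_neg, smul_add, smul_smul, smul_smul, neg_smul, neg_smul, neg_add, add_comm]
      congr 3 <;> field_simp
    exact orth_dep h1 h3 he he' h30

section cont

variable {c : Fin 3 → V →ₗ[ℝ] ℝ}

lemma continuous_dt (hcc : ∀ i, Continuous (c i)) :
    Continuous (fun p : V × V × V => dt c p.1 p.2.1 p.2.2) := by
  unfold dt
  have h0 := hcc 0
  have h1 := hcc 1
  have h2 := hcc 2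
  fun_prop

lemma continuous_dt' {X : Type*} [TopologicalSpace X] (hcc : ∀ i, Continuous (c i)) {u v w : X → V}
    (hu : Continuous u) (hv : Continuous v) (hw : Continuous w) :
    Continuous (fun z => dt c (u z) (v z) (w z)) :=
  Continuous.comp (g := fun p : V × V × V => dt c p.1 p.2.1 p.2.2)
    (f := fun z => (u z, v z, w z)) (continuous_dt hcc) (hu.prodMk (hv.prodMk hw))

end cont

/-- The midpoint curve. -/
def gam (a : ℝ → V) (T θ : ℝ) : V := a θ + a (θ + T)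

/-- The difference curve. -/
def hh (a : ℝ → V) (T θ : ℝ) : V := a θ - a (θ + T)

/-- The label. -/
def Qf (c : Fin 3 → V →ₗ[ℝ] ℝ) (a : ℝ → V) (T x y : ℝ) : ℝ :=
  dt c (gam a T x) (gam a T y) (hh a T x - hh a T y) *
    dt c (gam a T x) (gam a T y) (hh a T x + hh a T y)

/-- The data of the rigidity theorem. -/
structure CircleData (a : ℝ → V) (T r m : ℝ) : Prop where
  hT : 0 < T
  cont : Continuous a
  unit : ∀ θ, ‖a θ‖ = 1
  per : ∀ θ, a (θ + T + T) = a θ
  iso : ∀ x y, ‖a x - a y‖ = ‖a (x + T) - a (y + T)‖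
  sum : ∀ θ, ‖a θ + a (θ + T)‖ = r
  hr : 0 < r
  inj : ∀ x y, y < x → x < y + T → a x ≠ a y ∧ a x ≠ a (y + T)
  hm : 0 < m
  hm2 : ∀ θ, ‖a θ - a (θ + T)‖ / 2 ≤ 1 - m
  far : ∀ x y, y + T / 9 ≤ x → x ≤ y + T - T / 9 →
    ‖gam a T x - gam a T y‖ ≤ m ∧ ‖gam a T x - gam a T y‖ < r ∧
    (4 / m + 3) * ‖gam a T x - gam a T y‖ < ‖a x - a y‖ ∧
    (4 / m + 3) * ‖gam a T x - gam a T y‖ < ‖a x - a (y + T)‖

namespace CircleData

variable {a : ℝ → V} {T r m : ℝ} {c : Fin 3 → V →ₗ[ℝ] ℝ}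

lemma gam_add (C : CircleData a T r m) (θ : ℝ) : gam a T (θ + T) = gam a T θ := by
  unfold gam
  rw [C.per, add_comm]

lemma hh_add (C : CircleData a T r m) (θ : ℝ) : hh a T (θ + T) = - hh a T θ := by
  unfold hh
  rw [C.per, neg_sub]

lemma cont_gam (C : CircleData a T r m) : Continuous (gam a T) := by
  unfold gam
  have := C.cont
  fun_prop

lemma cont_hh (C : CircleData a T r m) : Continuous (hh a T) := by
  unfold hh
  have := C.cont
  fun_prop

lemma norm_gam (C : CircleData a T r m) (θ : ℝ) : ‖gam a T θ‖ = r := C.sum θ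

/-- The two chords at a pair of parameters: the triple product of the first one does not vanish
for a far pair. -/
lemma E_ne [StrictConvexSpace ℝ V] (C : CircleData a T r m) (hc : ∀ v, (∀ i, c i v = 0) → v = 0)
    {x y : ℝ} (hne : gam a T x ≠ gam a T y) (h1 : ‖gam a T x - gam a T y‖ ≤ m)
    (h2 : ‖gam a T x - gam a T y‖ < r)
    (h3 : (4 / m + 3) * ‖gam a T x - gam a T y‖ < ‖a x - a y‖) :
    dt c (gam a T x) (gam a T y) (hh a T x - hh a T y) ≠ 0 := by
  intro h0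
  obtain ⟨θ₃, hθ₃, hp₃⟩ := chord_point (P := gam a T x) (Q := gam a T y)
    (by rw [C.norm_gam, C.norm_gam])
  obtain ⟨θ₁, hθ₁, hp₁⟩ := chord_point (P := a x - a y) (Q := a (y + T) - a (x + T))
    (by rw [C.iso x y, norm_sub_rev])
  have eD : (a x - a y) - (a (y + T) - a (x + T)) = gam a T x - gam a T y := by
    unfold gam
    abel
  rw [eD] at hp₁
  have hDne : gam a T x - gam a T y ≠ 0 := sub_ne_zero.2 hne
  have hp₃0 : gam a T y + θ₃ • (gam a T x - gam a T y) ≠ 0 := by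
    intro h
    have h4 : gam a T y = - (θ₃ • (gam a T x - gam a T y)) := eq_neg_of_add_eq_zero_left h
    have h5 : ‖gam a T y‖ = |θ₃| * ‖gam a T x - gam a T y‖ := by
      rw [h4, norm_neg, norm_smul, Real.norm_eq_abs, ← h4]
    rw [C.norm_gam, abs_of_nonneg hθ₃.1] at h5
    have h6 : θ₃ * ‖gam a T x - gam a T y‖ ≤ 1 * ‖gam a T x - gam a T y‖ :=
      mul_le_mul_of_nonneg_right hθ₃.2 (norm_nonneg _)
    linarith
  have hdet : dt c (gam a T y + θ₃ • (gam a T x - gam a T y)) (gam a T x - gam a T y)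
      ((a (y + T) - a (x + T)) + θ₁ • (gam a T x - gam a T y)) = 0 := by
    have e : dt c (gam a T y + θ₃ • (gam a T x - gam a T y)) (gam a T x - gam a T y)
        ((a (y + T) - a (x + T)) + θ₁ • (gam a T x - gam a T y)) =
        - (1 / 2) * dt c (gam a T x) (gam a T y) (hh a T x - hh a T y) := by
      simp only [dt, gam, hh, map_add, map_sub, map_smul, smul_eq_mul]
      ring
    rw [e, h0, mul_zero]
  obtain ⟨κ, hκ⟩ := orth_pair hc hp₁ hp₃ hDne hp₃0 hdet
  have := far_core (C.unit x) (C.unit (x + T)) (C.unit y) (C.unit (y + T)) C.hm (C.hm2 y) h1 hθ₁ hθ₃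
    hκ
  exact absurd this (not_le.2 h3)

/-- The label does not vanish on far pairs. -/
lemma Q_far [StrictConvexSpace ℝ V] (C : CircleData a T r m) (hc : ∀ v, (∀ i, c i v = 0) → v = 0)
    {x y : ℝ} (h1 : y + T / 9 ≤ x) (h2 : x ≤ y + T - T / 9) (hne : gam a T x ≠ gam a T y) :
    Qf c a T x y ≠ 0 := by
  obtain ⟨h3, h4, h5, h6⟩ := C.far x y h1 h2
  refine mul_ne_zero (C.E_ne hc hne h3 h4 h5) ?_
  have e1 : gam a T (y + T) = gam a T y := C.gam_add y
  have e2 : hh a T x + hh a T y = hh a T x - hh a T (y + T) := by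
    rw [C.hh_add, sub_neg_eq_add]
  rw [e2, ← e1]
  exact C.E_ne hc (by rw [e1]; exact hne) (by rw [e1]; exact h3) (by rw [e1]; exact h4)
    (by rw [e1]; exact h6)

/-- A margin near a pair with the same midpoint. -/
lemma margin [StrictConvexSpace ℝ V] [FiniteDimensional ℝ V] (C : CircleData a T r m)
    (hc : ∀ v, (∀ i, c i v = 0) → v = 0) (hcc : ∀ i, Continuous (c i)) {x₀ y₀ : ℝ}
    (hco : gam a T x₀ = gam a T y₀) (hne : a x₀ ≠ a y₀) :
    ∃ m' > 0, ∃ ε > 0, ∀ x y, |x - x₀| < ε → |y - y₀| < ε →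
      m' * ‖gam a T x - gam a T y‖ ≤
        |dt c (gam a T x₀) (gam a T x - gam a T y) (hh a T x₀ - hh a T y₀)| := by
  have : ProperSpace V := FiniteDimensional.proper_real V
  by_contra hcon
  push Not at hcon
  have hseq : ∀ n : ℕ, ∃ x y, |x - x₀| < 1 / ((n : ℝ) + 1) ∧ |y - y₀| < 1 / ((n : ℝ) + 1) ∧
      |dt c (gam a T x₀) (gam a T x - gam a T y) (hh a T x₀ - hh a T y₀)| <
        1 / ((n : ℝ) + 1) * ‖gam a T x - gam a T y‖ :=
    fun n => hcon _ (by positivity) _ (by positivity)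
  choose xs ys hxs hys hlt using hseq
  have h1n : Tendsto (fun n : ℕ => 1 / ((n : ℝ) + 1)) atTop (𝓝 0) :=
    tendsto_one_div_add_atTop_nhds_zero_nat
  have hxlim : Tendsto xs atTop (𝓝 x₀) := by
    rw [tendsto_iff_dist_tendsto_zero]
    refine squeeze_zero (fun _ => dist_nonneg) (fun n => ?_) h1n
    rw [Real.dist_eq]
    exact (hxs n).le
  have hylim : Tendsto ys atTop (𝓝 y₀) := by
    rw [tendsto_iff_dist_tendsto_zero]
    refine squeeze_zero (fun _ => dist_nonneg) (fun n => ?_) h1n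
    rw [Real.dist_eq]
    exact (hys n).le
  have hDne : ∀ n, gam a T (xs n) - gam a T (ys n) ≠ 0 := by
    intro n h0
    have := hlt n
    rw [h0, norm_zero, mul_zero] at this
    exact absurd this (not_lt.2 (abs_nonneg _))
  have he : ∀ n, ‖gam a T (xs n) - gam a T (ys n)‖⁻¹ • (gam a T (xs n) - gam a T (ys n)) ∈
      Metric.sphere (0 : V) 1 := by
    intro n
    rw [mem_sphere_zero_iff_norm, norm_smul, norm_inv, norm_norm,
      inv_mul_cancel₀ (norm_ne_zero_iff.2 (hDne n))]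
  obtain ⟨e₀, he₀, φ, hφ, hlim⟩ := (isCompact_sphere (0 : V) 1).tendsto_subseq he
  have he₀ne : e₀ ≠ 0 := by
    intro h
    rw [h, mem_sphere_zero_iff_norm, norm_zero] at he₀
    exact zero_ne_one he₀
  have hxφ := hxlim.comp hφ.tendsto_atTop
  have hyφ := hylim.comp hφ.tendsto_atTop
  have hgx : Tendsto (fun n => gam a T (xs (φ n))) atTop (𝓝 (gam a T x₀)) :=
    C.cont_gam.continuousAt.tendsto.comp hxφ
  have hgy : Tendsto (fun n => gam a T (ys (φ n))) atTop (𝓝 (gam a T y₀)) :=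
    C.cont_gam.continuousAt.tendsto.comp hyφ
  have hDlim : Tendsto (fun n => gam a T (xs (φ n)) - gam a T (ys (φ n))) atTop (𝓝 0) := by
    have := hgx.sub hgy
    rwa [hco, sub_self] at this
  have hsmall : ∀ θ : ℕ → ℝ, (∀ n, θ n ∈ Icc (0 : ℝ) 1) →
      Tendsto (fun n => θ n • (gam a T (xs (φ n)) - gam a T (ys (φ n)))) atTop (𝓝 0) := by
    intro θ hθ
    refine squeeze_zero_norm (a := fun n => ‖gam a T (xs (φ n)) - gam a T (ys (φ n))‖) (fun n => ?_)
      (by simpa using hDlim.norm)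
    rw [norm_smul, Real.norm_of_nonneg (hθ n).1]
    exact mul_le_of_le_one_left (norm_nonneg _) (hθ n).2
  -- the midpoint chord
  have hch3 : ∀ n, ∃ θ ∈ Icc (0 : ℝ) 1, BOrth (gam a T (ys n) + θ • (gam a T (xs n) - gam a T (ys n)))
      (gam a T (xs n) - gam a T (ys n)) := fun n =>
    chord_point (by rw [C.norm_gam, C.norm_gam])
  choose θ₃ hθ₃ hp₃ using hch3
  -- the difference chord
  have hch1 : ∀ n, ∃ θ ∈ Icc (0 : ℝ) 1,
      BOrth ((a (ys n + T) - a (xs n + T)) + θ • (gam a T (xs n) - gam a T (ys n)))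
      (gam a T (xs n) - gam a T (ys n)) := by
    intro n
    have := chord_point (P := a (xs n) - a (ys n)) (Q := a (ys n + T) - a (xs n + T))
      (by rw [C.iso (xs n) (ys n), norm_sub_rev])
    have eD : (a (xs n) - a (ys n)) - (a (ys n + T) - a (xs n + T)) =
        gam a T (xs n) - gam a T (ys n) := by
      unfold gam
      abel
    rwa [eD] at this
  choose θ₁ hθ₁ hp₁ using hch1
  have hO3 : BOrth (gam a T y₀) e₀ := by
    refine BOrth_limit (l := atTop)
      (p := fun n => gam a T (ys (φ n)) + θ₃ (φ n) • (gam a T (xs (φ n)) - gam a T (ys (φ n))))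
      (e := fun n => ‖gam a T (xs (φ n)) - gam a T (ys (φ n))‖⁻¹ •
        (gam a T (xs (φ n)) - gam a T (ys (φ n)))) ?_ ?_ hlim
    · exact Eventually.of_forall fun n => (hp₃ (φ n)).smul_right _
    · have := hgy.add (hsmall (fun n => θ₃ (φ n)) (fun n => hθ₃ (φ n)))
      rwa [add_zero] at this
  have hB : Tendsto (fun n => a (ys (φ n) + T) - a (xs (φ n) + T)) atTop
      (𝓝 (a (y₀ + T) - a (x₀ + T))) := by
    have h1 : Continuous (fun t => a (t + T)) := C.cont.comp (by fun_prop)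
    exact (h1.continuousAt.tendsto.comp hyφ).sub (h1.continuousAt.tendsto.comp hxφ)
  have hO1 : BOrth (a (y₀ + T) - a (x₀ + T)) e₀ := by
    refine BOrth_limit (l := atTop)
      (p := fun n => (a (ys (φ n) + T) - a (xs (φ n) + T)) +
        θ₁ (φ n) • (gam a T (xs (φ n)) - gam a T (ys (φ n))))
      (e := fun n => ‖gam a T (xs (φ n)) - gam a T (ys (φ n))‖⁻¹ •
        (gam a T (xs (φ n)) - gam a T (ys (φ n)))) ?_ ?_ hlim
    · exact Eventually.of_forall fun n => (hp₁ (φ n)).smul_right _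
    · have := hB.add (hsmall (fun n => θ₁ (φ n)) (fun n => hθ₁ (φ n)))
      rwa [add_zero] at this
  -- the triple product vanishes in the limit
  have hdt0 : dt c (gam a T x₀) e₀ (hh a T x₀ - hh a T y₀) = 0 := by
    have hc1 : Continuous (fun e => dt c (gam a T x₀) e (hh a T x₀ - hh a T y₀)) :=
      continuous_dt' hcc continuous_const continuous_id continuous_const
    have h2 := (hc1.continuousAt.tendsto.comp hlim).abs
    have h3 : Tendsto (fun n : ℕ => 1 / (((φ n : ℕ) : ℝ) + 1)) atTop (𝓝 0) :=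
      h1n.comp hφ.tendsto_atTop
    have h4 : |dt c (gam a T x₀) e₀ (hh a T x₀ - hh a T y₀)| ≤ 0 := by
      refine le_of_tendsto_of_tendsto' h2 h3 (fun n => ?_)
      simp only [Function.comp_apply]
      have h5 := hlt (φ n)
      have hpos : 0 < ‖gam a T (xs (φ n)) - gam a T (ys (φ n))‖ := norm_pos_iff.2 (hDne _)
      have e1 : dt c (gam a T x₀)
          (‖gam a T (xs (φ n)) - gam a T (ys (φ n))‖⁻¹ • (gam a T (xs (φ n)) - gam a T (ys (φ n))))
          (hh a T x₀ - hh a T y₀) = ‖gam a T (xs (φ n)) - gam a T (ys (φ n))‖⁻¹ *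
          dt c (gam a T x₀) (gam a T (xs (φ n)) - gam a T (ys (φ n))) (hh a T x₀ - hh a T y₀) := by
        simp only [dt, map_smul, smul_eq_mul]
        ring
      rw [e1, abs_mul, abs_of_pos (inv_pos.2 hpos), inv_mul_le_iff₀ hpos]
      linarith
    exact abs_nonpos_iff.1 h4
  -- the limit chord
  have hAB : a x₀ - a y₀ = a (y₀ + T) - a (x₀ + T) := by
    have : a x₀ + a (x₀ + T) = a y₀ + a (y₀ + T) := hco
    rw [sub_eq_iff_eq_add, ← sub_eq_zero]
    have h6 : a x₀ - (a (y₀ + T) - a (x₀ + T) + a y₀) =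
        (a x₀ + a (x₀ + T)) - (a y₀ + a (y₀ + T)) := by abel
    rw [h6, this, sub_self]
  have hdt1 : dt c (gam a T y₀) e₀ (a (y₀ + T) - a (x₀ + T)) = 0 := by
    have e2 : hh a T x₀ - hh a T y₀ = (2 : ℝ) • (a (y₀ + T) - a (x₀ + T)) := by
      have : hh a T x₀ - hh a T y₀ = (a x₀ - a y₀) + (a (y₀ + T) - a (x₀ + T)) := by
        unfold hh
        abel
      rw [this, hAB, two_smul]
    rw [e2, hco] at hdt0
    simp only [dt, map_smul, smul_eq_mul] at hdt0 ⊢
    linarith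
  have hξ : gam a T y₀ ≠ 0 := by
    intro h
    have := C.norm_gam y₀
    rw [h, norm_zero] at this
    exact C.hr.ne this
  obtain ⟨κ, hκ⟩ := orth_pair hc hO1 hO3 he₀ne hξ hdt1
  have hfc := far_core (u := a x₀) (v := a (x₀ + T)) (b := a y₀) (c := a (y₀ + T))
    (C.unit x₀) (C.unit (x₀ + T)) (C.unit y₀) (C.unit (y₀ + T)) (m := m) (κ := κ) (θ₁ := 0) (θ₃ := 0)
    C.hm (C.hm2 y₀)
    (by
      have : (a x₀ + a (x₀ + T)) - (a y₀ + a (y₀ + T)) = 0 := sub_eq_zero.2 hco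
      rw [this, norm_zero]
      exact C.hm.le)
    ⟨le_refl _, zero_le_one⟩ ⟨le_refl _, zero_le_one⟩
    (by
      simp only [zero_smul, add_zero]
      exact hκ)
  have h7 : (a x₀ + a (x₀ + T)) - (a y₀ + a (y₀ + T)) = 0 := sub_eq_zero.2 hco
  rw [h7, norm_zero, mul_zero] at hfc
  exact hne (sub_eq_zero.1 (norm_le_zero_iff.1 hfc))

/-- The margin transfers to nearby triple products. -/
lemma sign_near [FiniteDimensional ℝ V] (C : CircleData a T r m) (hcc : ∀ i, Continuous (c i))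
    {f : ℝ → ℝ → V} (hf : Continuous fun p : ℝ × ℝ => f p.1 p.2) {x₀ y₀ m' ε : ℝ} (hm' : 0 < m')
    (hε : 0 < ε)
    (hmar : ∀ x y, |x - x₀| < ε → |y - y₀| < ε → m' * ‖gam a T x - gam a T y‖ ≤
      |dt c (gam a T x₀) (gam a T x - gam a T y) (f x₀ y₀)|) :
    ∃ ε' > 0, ε' ≤ ε ∧ ∀ x y, |x - x₀| < ε' → |y - y₀| < ε' → gam a T x ≠ gam a T y →
      0 < dt c (gam a T x) (gam a T y) (f x y) *
        (- dt c (gam a T x₀) (gam a T x - gam a T y) (f x₀ y₀)) := by
  have : ProperSpace V := FiniteDimensional.proper_real V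
  have hP : ∀ e ∈ Metric.sphere (0 : V) 1, ∀ᶠ z : (ℝ × ℝ) × V in 𝓝 ((x₀, y₀), e),
      |dt c (gam a T z.1.1) z.2 (f z.1.1 z.1.2) - dt c (gam a T x₀) z.2 (f x₀ y₀)| < m' / 2 := by
    intro e _
    have hcont : Continuous (fun z : (ℝ × ℝ) × V =>
        |dt c (gam a T z.1.1) z.2 (f z.1.1 z.1.2) - dt c (gam a T x₀) z.2 (f x₀ y₀)|) := by
      have h1 : Continuous (fun z : (ℝ × ℝ) × V => dt c (gam a T z.1.1) z.2 (f z.1.1 z.1.2)) :=
        continuous_dt' hcc (C.cont_gam.comp (continuous_fst.comp continuous_fst)) continuous_snd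
          (hf.comp continuous_fst)
      have h2 : Continuous (fun z : (ℝ × ℝ) × V => dt c (gam a T x₀) z.2 (f x₀ y₀)) :=
        continuous_dt' hcc continuous_const continuous_snd continuous_const
      exact (h1.sub h2).abs
    have h0 : |dt c (gam a T ((x₀, y₀), e).1.1) ((x₀, y₀), e).2 (f ((x₀, y₀), e).1.1 ((x₀, y₀), e).1.2) -
        dt c (gam a T x₀) ((x₀, y₀), e).2 (f x₀ y₀)| < m' / 2 := by
      simp only [sub_self, abs_zero]
      linarith
    exact hcont.continuousAt.eventually (gt_mem_nhds h0)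
  have hU := (isCompact_sphere (0 : V) 1).eventually_forall_of_forall_eventually
    (x₀ := ((x₀, y₀) : ℝ × ℝ))
    (P := fun (p : ℝ × ℝ) (e : V) =>
      |dt c (gam a T p.1) e (f p.1 p.2) - dt c (gam a T x₀) e (f x₀ y₀)| < m' / 2) hP
  obtain ⟨ε₁, hε₁, hball⟩ := Metric.eventually_nhds_iff.1 hU
  refine ⟨min ε ε₁, lt_min hε hε₁, min_le_left _ _, fun x y hx hy hne => ?_⟩
  have hx1 := lt_of_lt_of_le hx (min_le_left _ _)
  have hx2 := lt_of_lt_of_le hx (min_le_right _ _)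
  have hy1 := lt_of_lt_of_le hy (min_le_left _ _)
  have hy2 := lt_of_lt_of_le hy (min_le_right _ _)
  have hDne : gam a T x - gam a T y ≠ 0 := sub_ne_zero.2 hne
  have hpos : 0 < ‖gam a T x - gam a T y‖ := norm_pos_iff.2 hDne
  have hdist : dist ((x, y) : ℝ × ℝ) (x₀, y₀) < ε₁ := by
    rw [Prod.dist_eq]
    exact max_lt (by rwa [Real.dist_eq]) (by rwa [Real.dist_eq])
  have hes : ‖gam a T x - gam a T y‖⁻¹ • (gam a T x - gam a T y) ∈ Metric.sphere (0 : V) 1 := by
    rw [mem_sphere_zero_iff_norm, norm_smul, norm_inv, norm_norm, inv_mul_cancel₀ hpos.ne']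
  have h3 := hball hdist _ hes
  simp only at h3
  have hm1 := hmar x y hx1 hy1
  -- scaling
  have e1 : ∀ (u w : V), dt c u (‖gam a T x - gam a T y‖⁻¹ • (gam a T x - gam a T y)) w =
      ‖gam a T x - gam a T y‖⁻¹ * dt c u (gam a T x - gam a T y) w := by
    intro u w
    simp only [dt, map_smul, smul_eq_mul]
    ring
  rw [e1, e1, ← mul_sub, abs_mul, abs_of_pos (inv_pos.2 hpos), inv_mul_lt_iff₀ hpos] at h3
  have e2 : dt c (gam a T x) (gam a T y) (f x y) = - dt c (gam a T x) (gam a T x - gam a T y) (f x y) := by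
    simp only [dt, map_sub]
    ring
  rw [e2, neg_mul_neg]
  obtain ⟨P₀, hP₀⟩ : ∃ P₀, P₀ = dt c (gam a T x) (gam a T x - gam a T y) (f x y) := ⟨_, rfl⟩
  obtain ⟨u, hu⟩ : ∃ u, u = dt c (gam a T x₀) (gam a T x - gam a T y) (f x₀ y₀) := ⟨_, rfl⟩
  rw [← hP₀, ← hu] at h3 ⊢
  rw [← hu] at hm1
  have hbound : |P₀ - u| < |u| / 2 := by
    have : ‖gam a T x - gam a T y‖ * (m' / 2) = (m' * ‖gam a T x - gam a T y‖) / 2 := by ring
    linarith
  rw [abs_lt] at hbound
  have hu0 : 0 < |u| := lt_of_lt_of_le (mul_pos hm' hpos) hm1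
  rcases lt_or_ge u 0 with hneg | hnn
  · rw [abs_of_neg hneg] at hbound
    have : P₀ < 0 := by linarith [hbound.2]
    exact mul_pos_of_neg_of_neg this hneg
  · rw [abs_of_nonneg hnn] at hbound hu0
    have : 0 < P₀ := by linarith [hbound.1]
    exact mul_pos this hu0

/-- All the estimates near a pair with the same midpoint. -/
lemma box_data [StrictConvexSpace ℝ V] [FiniteDimensional ℝ V] (C : CircleData a T r m)
    (hc : ∀ v, (∀ i, c i v = 0) → v = 0) (hcc : ∀ i, Continuous (c i)) {x₀ y₀ : ℝ}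
    (h1 : y₀ < x₀) (h2 : x₀ < y₀ + T) (hco : gam a T x₀ = gam a T y₀) :
    ∃ m' > 0, ∃ ε > 0, ∀ x y, |x - x₀| < ε → |y - y₀| < ε →
      m' * ‖gam a T x - gam a T y‖ ≤
        |dt c (gam a T x₀) (gam a T x - gam a T y) (hh a T x₀ - hh a T y₀)| ∧
      m' * ‖gam a T x - gam a T y‖ ≤
        |dt c (gam a T x₀) (gam a T x - gam a T y) (hh a T x₀ + hh a T y₀)| ∧
      (gam a T x ≠ gam a T y → 0 < dt c (gam a T x) (gam a T y) (hh a T x - hh a T y) *
        (- dt c (gam a T x₀) (gam a T x - gam a T y) (hh a T x₀ - hh a T y₀))) ∧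
      (gam a T x ≠ gam a T y → 0 < dt c (gam a T x) (gam a T y) (hh a T x + hh a T y) *
        (- dt c (gam a T x₀) (gam a T x - gam a T y) (hh a T x₀ + hh a T y₀))) := by
  obtain ⟨hne1, hne2⟩ := C.inj x₀ y₀ h1 h2
  obtain ⟨m₁, hm₁, ε₁, hε₁, hb₁⟩ := C.margin hc hcc hco hne1
  obtain ⟨m₂, hm₂, ε₂, hε₂, hb₂⟩ := C.margin hc hcc (x₀ := x₀) (y₀ := y₀ + T)
    (by rw [C.gam_add]; exact hco) hne2
  have hb₂' : ∀ x y, |x - x₀| < ε₂ → |y - y₀| < ε₂ → m₂ * ‖gam a T x - gam a T y‖ ≤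
      |dt c (gam a T x₀) (gam a T x - gam a T y) (hh a T x₀ + hh a T y₀)| := by
    intro x y hx hy
    have e : y + T - (y₀ + T) = y - y₀ := by ring
    have := hb₂ x (y + T) hx (by rwa [e])
    rwa [C.gam_add, C.hh_add, sub_neg_eq_add] at this
  obtain ⟨ε₃, hε₃, hle₃, hs₃⟩ := C.sign_near hcc (f := fun x y => hh a T x - hh a T y)
    ((C.cont_hh.comp continuous_fst).sub (C.cont_hh.comp continuous_snd)) hm₁ hε₁ hb₁
  obtain ⟨ε₄, hε₄, hle₄, hs₄⟩ := C.sign_near hcc (f := fun x y => hh a T x + hh a T y)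
    ((C.cont_hh.comp continuous_fst).add (C.cont_hh.comp continuous_snd)) hm₂ hε₂ hb₂'
  refine ⟨min m₁ m₂, lt_min hm₁ hm₂, min ε₃ ε₄, lt_min hε₃ hε₄, fun x y hx hy => ?_⟩
  have hx3 := lt_of_lt_of_le hx (min_le_left _ _)
  have hx4 := lt_of_lt_of_le hx (min_le_right _ _)
  have hy3 := lt_of_lt_of_le hy (min_le_left _ _)
  have hy4 := lt_of_lt_of_le hy (min_le_right _ _)
  refine ⟨?_, ?_, hs₃ x y hx3 hy3, hs₄ x y hx4 hy4⟩
  · refine le_trans ?_ (hb₁ x y (lt_of_lt_of_le hx3 hle₃) (lt_of_lt_of_le hy3 hle₃))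
    exact mul_le_mul_of_nonneg_right (min_le_left _ _) (norm_nonneg _)
  · refine le_trans ?_ (hb₂' x y (lt_of_lt_of_le hx4 hle₄) (lt_of_lt_of_le hy4 hle₄))
    exact mul_le_mul_of_nonneg_right (min_le_right _ _) (norm_nonneg _)

/-- The label does not vanish near a pair with the same midpoint. -/
lemma Q_cl [StrictConvexSpace ℝ V] [FiniteDimensional ℝ V] (C : CircleData a T r m)
    (hc : ∀ v, (∀ i, c i v = 0) → v = 0) (hcc : ∀ i, Continuous (c i)) {x₀ y₀ : ℝ}
    (h1 : y₀ < x₀) (h2 : x₀ < y₀ + T) (hco : gam a T x₀ = gam a T y₀) :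
    ∃ ε > 0, ∀ x y, |x - x₀| < ε → |y - y₀| < ε → gam a T x ≠ gam a T y → Qf c a T x y ≠ 0 := by
  obtain ⟨m', hm', ε, hε, hbox⟩ := C.box_data hc hcc h1 h2 hco
  refine ⟨ε, hε, fun x y hx hy hne => ?_⟩
  obtain ⟨-, -, h3, h4⟩ := hbox x y hx hy
  exact mul_ne_zero (left_ne_zero_of_mul (h3 hne).ne') (left_ne_zero_of_mul (h4 hne).ne')

/-- The label has one sign near a pair with the same midpoint, both parameters active. -/
lemma Q_ll [StrictConvexSpace ℝ V] [FiniteDimensional ℝ V] (C : CircleData a T r m)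
    (hc : ∀ v, (∀ i, c i v = 0) → v = 0) (hcc : ∀ i, Continuous (c i)) {x₀ y₀ : ℝ}
    (h1 : y₀ < x₀) (h2 : x₀ < y₀ + T) (hco : gam a T x₀ = gam a T y₀)
    (hax : Act (gam a T) x₀) (hay : Act (gam a T) y₀) :
    ∃ ε > 0, ∃ σ : ℝ, (σ = 1 ∨ σ = -1) ∧ ∀ x y, |x - x₀| < ε → |y - y₀| < ε →
      gam a T x ≠ gam a T y → 0 < σ * Qf c a T x y := by
  obtain ⟨m', hm', ε, hε, hbox⟩ := C.box_data hc hcc h1 h2 hco
  obtain ⟨ξ, hξ⟩ : ∃ ξ, ξ = gam a T x₀ := ⟨_, rfl⟩
  obtain ⟨c₁, hc₁⟩ : ∃ c₁, c₁ = hh a T x₀ - hh a T y₀ := ⟨_, rfl⟩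
  obtain ⟨c₂, hc₂⟩ : ∃ c₂, c₂ = hh a T x₀ + hh a T y₀ := ⟨_, rfl⟩
  simp only [← hξ, ← hc₁, ← hc₂] at hbox
  have hyξ : gam a T y₀ = ξ := by rw [hξ, hco]
  obtain ⟨A, hAdef⟩ : ∃ A : ℝ → ℝ, A = fun s => dt c ξ (gam a T s - ξ) c₁ := ⟨_, rfl⟩
  obtain ⟨B, hBdef⟩ : ∃ B : ℝ → ℝ, B = fun s => dt c ξ (gam a T s - ξ) c₂ := ⟨_, rfl⟩
  have hA : Continuous A := by
    rw [hAdef]
    exact continuous_dt' hcc continuous_const (C.cont_gam.sub continuous_const) continuous_const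
  have hB : Continuous B := by
    rw [hBdef]
    exact continuous_dt' hcc continuous_const (C.cont_gam.sub continuous_const) continuous_const
  have eA : ∀ s r, A s - A r = dt c ξ (gam a T s - gam a T r) c₁ := by
    intro s r
    rw [hAdef]
    simp only [dt, map_sub]
    ring
  have eB : ∀ s r, B s - B r = dt c ξ (gam a T s - gam a T r) c₂ := by
    intro s r
    rw [hBdef]
    simp only [dt, map_sub]
    ring
  have hzero : ∀ (f : V), dt c ξ 0 f = 0 := by
    intro f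
    simp only [dt, map_zero]
    ring
  have hAx : A x₀ = 0 := by
    rw [hAdef]
    simp only [← hξ, sub_self, hzero]
  have hAy : A y₀ = 0 := by
    rw [hAdef]
    simp only [hyξ, sub_self, hzero]
  have hBx : B x₀ = 0 := by
    rw [hBdef]
    simp only [← hξ, sub_self, hzero]
  have hBy : B y₀ = 0 := by
    rw [hBdef]
    simp only [hyξ, sub_self, hzero]
  have mem : ∀ {t t₀ : ℝ}, t ∈ Icc (t₀ - ε / 2) (t₀ + ε / 2) → |t - t₀| < ε := by
    intro t t₀ ht
    rw [abs_lt]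
    constructor <;> linarith [ht.1, ht.2]
  have mem' : ∀ {t t₀ : ℝ}, |t - t₀| < ε / 2 → t ∈ Icc (t₀ - ε / 2) (t₀ + ε / 2) := by
    intro t t₀ ht
    have := abs_lt.1 ht
    constructor <;> linarith [this.1, this.2]
  have mem0 : ∀ {t₀ : ℝ}, t₀ ∈ Icc (t₀ - ε / 2) (t₀ + ε / 2) := by
    intro t₀
    constructor <;> linarith
  have hnorm0 : ∀ {z : V}, m' * ‖z‖ ≤ 0 → z = 0 := by
    intro z hz
    have : ‖z‖ ≤ 0 := by
      by_contra hcon
      push Not at hcon
      have := mul_pos hm' hcon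
      linarith
    exact norm_le_zero_iff.1 this
  have hnc : ∃ s ∈ Icc (x₀ - ε / 2) (x₀ + ε / 2), A s ≠ 0 ∨ B s ≠ 0 := by
    obtain ⟨x', hx', hne'⟩ := hax (ε / 2) (by linarith)
    refine ⟨x', mem' hx', Or.inl fun h0 => hne' ?_⟩
    obtain ⟨h3, -, -, -⟩ := hbox x' y₀ (mem (mem' hx')) (by simpa using hε)
    have h4 := eA x' y₀
    rw [h0, hAy, sub_zero] at h4
    rw [← h4, abs_zero] at h3
    have := hnorm0 h3
    rw [sub_eq_zero.1 this, hco]
  have hnc' : ∃ r ∈ Icc (y₀ - ε / 2) (y₀ + ε / 2), A r ≠ 0 ∨ B r ≠ 0 := by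
    obtain ⟨y', hy', hne'⟩ := hay (ε / 2) (by linarith)
    refine ⟨y', mem' hy', Or.inl fun h0 => hne' ?_⟩
    obtain ⟨h3, -, -, -⟩ := hbox x₀ y' (by simpa using hε) (mem (mem' hy'))
    have h4 := eA x₀ y'
    rw [h0, hAx, sub_zero] at h4
    rw [← h4, abs_zero] at h3
    have := hnorm0 h3
    rw [← sub_eq_zero.1 this, hco]
  have hiff : ∀ s ∈ Icc (x₀ - ε / 2) (x₀ + ε / 2), ∀ r ∈ Icc (y₀ - ε / 2) (y₀ + ε / 2),
      A s = A r ↔ B s = B r := by
    intro s hs r hr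
    obtain ⟨h3, h4, -, -⟩ := hbox s r (mem hs) (mem hr)
    constructor
    · intro he
      have h5 := eA s r
      rw [he, sub_self] at h5
      rw [← h5, abs_zero] at h3
      have h6 := sub_eq_zero.1 (hnorm0 h3)
      rw [hBdef]
      simp only [h6]
    · intro he
      have h5 := eB s r
      rw [he, sub_self] at h5
      rw [← h5, abs_zero] at h4
      have h6 := sub_eq_zero.1 (hnorm0 h4)
      rw [hAdef]
      simp only [h6]
  obtain ⟨σ, hσ, hs⟩ := box_lemma (I := Icc (x₀ - ε / 2) (x₀ + ε / 2))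
    (I' := Icc (y₀ - ε / 2) (y₀ + ε / 2)) (convex_Icc _ _) (convex_Icc _ _) isCompact_Icc
    isCompact_Icc (a := A) (b := B) (a' := A) (b' := B) hA.continuousOn hB.continuousOn
    hA.continuousOn hB.continuousOn (s₀ := x₀) (r₀ := y₀) mem0 mem0 hAx hBx hAy hBy hnc hnc' hiff
  refine ⟨ε / 2, by linarith, σ, hσ, fun x y hx hy hne => ?_⟩
  obtain ⟨h3, -, h5, h6⟩ := hbox x y (mem (mem' hx)) (mem (mem' hy))
  have hAne : A x ≠ A y := by
    intro he
    have h7 := eA x y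
    rw [he, sub_self] at h7
    rw [← h7, abs_zero] at h3
    exact hne (sub_eq_zero.1 (hnorm0 h3))
  have h7 := hs x (mem' hx) y (mem' hy) hAne
  rw [eA, eB] at h7
  have h8 := h5 hne
  have h9 := h6 hne
  unfold Qf
  obtain ⟨E₁, hE₁⟩ : ∃ E₁, E₁ = dt c (gam a T x) (gam a T y) (hh a T x - hh a T y) := ⟨_, rfl⟩
  obtain ⟨E₂, hE₂⟩ : ∃ E₂, E₂ = dt c (gam a T x) (gam a T y) (hh a T x + hh a T y) := ⟨_, rfl⟩
  obtain ⟨u, hu⟩ : ∃ u, u = dt c ξ (gam a T x - gam a T y) c₁ := ⟨_, rfl⟩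
  obtain ⟨v, hv⟩ : ∃ v, v = dt c ξ (gam a T x - gam a T y) c₂ := ⟨_, rfl⟩
  rw [← hE₁, ← hu] at h8
  rw [← hE₂, ← hv] at h9
  rw [← hu, ← hv] at h7
  rw [← hE₁, ← hE₂]
  have hW : u * v ≠ 0 := by
    intro h0
    rw [h0, mul_zero] at h7
    exact lt_irrefl _ h7
  have h10 : 0 < (E₁ * E₂) * (u * v) := by
    have : (E₁ * E₂) * (u * v) = (E₁ * -u) * (E₂ * -v) := by ring
    rw [this]
    exact mul_pos h8 h9
  have h11 : 0 < (σ * (E₁ * E₂)) * ((u * v) * (u * v)) := by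
    have : (σ * (E₁ * E₂)) * ((u * v) * (u * v)) = (σ * (u * v)) * ((E₁ * E₂) * (u * v)) := by ring
    rw [this]
    exact mul_pos h7 h10
  exact (pos_iff_pos_of_mul_pos h11).2 (mul_self_pos.2 hW)

/-- The label satisfies the hypotheses of the combinatorial lemma. -/
theorem labelData [StrictConvexSpace ℝ V] [FiniteDimensional ℝ V] (C : CircleData a T r m)
    (hc : ∀ v, (∀ i, c i v = 0) → v = 0) (hcc : ∀ i, Continuous (c i)) :
    LabelData (gam a T) (Qf c a T) T (T / 9) where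
  hF := by
    have := C.hT
    positivity
  hFT := by
    have : 9 * (T / 9) = T := by ring
    rw [this]
  cont := C.cont_gam
  per := C.gam_add
  contQ := by
    have h1 : Continuous (fun p : ℝ × ℝ => gam a T p.1) := C.cont_gam.comp continuous_fst
    have h2 : Continuous (fun p : ℝ × ℝ => gam a T p.2) := C.cont_gam.comp continuous_snd
    have h3 : Continuous (fun p : ℝ × ℝ => hh a T p.1) := C.cont_hh.comp continuous_fst
    have h4 : Continuous (fun p : ℝ × ℝ => hh a T p.2) := C.cont_hh.comp continuous_snd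
    exact (continuous_dt' hcc h1 h2 (h3.sub h4)).mul (continuous_dt' hcc h1 h2 (h3.add h4))
  anti := by
    intro x y
    simp only [Qf, dt, map_add, map_sub]
    ring
  perQ := by
    intro x y
    simp only [Qf, C.gam_add, C.hh_add, dt, map_add, map_sub, map_neg]
    ring
  far := fun x y h1 h2 hne => C.Q_far hc h1 h2 hne
  cl := fun x y h1 h2 hco => C.Q_cl hc hcc h1 h2 hco
  ll := fun x y h1 h2 hco hax hay => C.Q_ll hc hcc h1 h2 hco hax hay

/-- **Rigidity.** The midpoint curve is constant. -/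
theorem rigid [StrictConvexSpace ℝ V] [FiniteDimensional ℝ V] (C : CircleData a T r m)
    (hc : ∀ v, (∀ i, c i v = 0) → v = 0) (hcc : ∀ i, Continuous (c i)) (x y : ℝ) :
    gam a T x = gam a T y :=
  (C.labelData hc hcc).const x y

end CircleData

end Vale.Agent.Lib.P084.Dim3N
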