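import Vale.Agent.Lib.P084.Dim3.Open
import Vale.Agent.Lib.P084.Dim3N.Rigid

/-! Parametrisation of the set `Ew w` by the circle, for `w` near a fixed nonzero vector. -/

set_option linter.unusedSectionVars false

namespace Vale.Agent.Lib.P084.Dim3N

open Set Filter Topology Metric Vale.Agent.Lib.P084.Dim4 Vale.Agent.Lib.P084.Dim3

/-- The unit circle in the Euclidean plane. -/
noncomputable def eθ (θ : ℝ) : E2 := !₂[Real.cos θ, Real.sin θ]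

lemma eθ_norm_sq_sub (x y : ℝ) : ‖eθ x - eθ y‖ ^ 2 = 2 - 2 * Real.cos (x - y) := by
  rw [EuclideanSpace.real_norm_sq_eq, Fin.sum_univ_two]
  simp only [eθ, PiLp.sub_apply, Matrix.cons_val_zero, Matrix.cons_val_one]
  rw [Real.cos_sub]
  have h1 := Real.sin_sq_add_cos_sq x
  have h2 := Real.sin_sq_add_cos_sq y
  nlinarith

lemma eθ_norm (θ : ℝ) : ‖eθ θ‖ = 1 := by
  have h : ‖eθ θ‖ ^ 2 = 1 := by
    rw [EuclideanSpace.real_norm_sq_eq, Fin.sum_univ_two]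
    simp only [eθ, Matrix.cons_val_zero, Matrix.cons_val_one]
    have h1 := Real.sin_sq_add_cos_sq θ
    nlinarith
  have h0 := norm_nonneg (eθ θ)
  nlinarith

lemma eθ_add_pi (θ : ℝ) : eθ (θ + Real.pi) = - eθ θ := by
  ext i
  fin_cases i <;> simp [eθ, Real.cos_add_pi, Real.sin_add_pi]

lemma continuous_eθ : Continuous eθ := by
  unfold eθ
  refine (PiLp.continuous_toLp 2 _).comp ?_
  refine continuous_pi fun i => ?_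
  fin_cases i
  · simpa using Real.continuous_cos
  · simpa using Real.continuous_sin

lemma eθ_surj (t : E2) (ht : ‖t‖ = 1) : ∃ θ, eθ θ = t := by
  obtain ⟨z, hz⟩ : ∃ z : ℂ, z = ⟨t 0, t 1⟩ := ⟨_, rfl⟩
  have hz1 : ‖z‖ = 1 := by
    have h1 : ‖t‖ ^ 2 = 1 := by rw [ht]; norm_num
    rw [EuclideanSpace.real_norm_sq_eq, Fin.sum_univ_two] at h1
    have h2 : ‖z‖ ^ 2 = 1 := by
      rw [Complex.sq_norm, Complex.normSq_apply, hz]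
      simp only
      nlinarith
    have h0 := norm_nonneg z
    nlinarith
  have hz0 : z ≠ 0 := by
    intro h
    rw [h, norm_zero] at hz1
    exact zero_ne_one hz1
  have hc : Real.cos (Complex.arg z) = t 0 := by
    rw [Complex.cos_arg hz0, hz1, hz]
    simp
  have hs : Real.sin (Complex.arg z) = t 1 := by
    rw [Complex.sin_arg, hz1, hz]
    simp
  refine ⟨Complex.arg z, ?_⟩
  ext i
  fin_cases i
  · simp [eθ, hc]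
  · simp [eθ, hs]

lemma norm_normalize_sub {E : Type*} [NormedAddCommGroup E] [NormedSpace ℝ E] {u v : E}
    (hu : u ≠ 0) (hv : v ≠ 0) : ‖‖u‖⁻¹ • u - ‖v‖⁻¹ • v‖ ≤ 2 * ‖u‖⁻¹ * ‖u - v‖ := by
  have hu' : 0 < ‖u‖ := norm_pos_iff.2 hu
  have hv' : 0 < ‖v‖ := norm_pos_iff.2 hv
  have e : ‖u‖⁻¹ • u - ‖v‖⁻¹ • v = ‖u‖⁻¹ • ((u - v) + (1 - ‖u‖ * ‖v‖⁻¹) • v) := by
    rw [smul_add, smul_sub, smul_smul, ← sub_eq_zero]
    have e2 : ‖u‖⁻¹ * (1 - ‖u‖ * ‖v‖⁻¹) = ‖u‖⁻¹ - ‖v‖⁻¹ := by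
      field_simp
    rw [e2, sub_smul]
    abel
  rw [e, norm_smul, norm_inv, norm_norm]
  have h1 : ‖(1 - ‖u‖ * ‖v‖⁻¹) • v‖ ≤ ‖u - v‖ := by
    rw [norm_smul, Real.norm_eq_abs]
    have e2 : |1 - ‖u‖ * ‖v‖⁻¹| * ‖v‖ = |‖v‖ - ‖u‖| := by
      have : ‖v‖ - ‖u‖ = (1 - ‖u‖ * ‖v‖⁻¹) * ‖v‖ := by
        field_simp
      rw [this, abs_mul, abs_of_pos hv']
    rw [e2, norm_sub_rev u v]
    exact abs_norm_sub_norm_le v u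
  have h2 := norm_add_le (u - v) ((1 - ‖u‖ * ‖v‖⁻¹) • v)
  have h3 : 0 < ‖u‖⁻¹ := inv_pos.2 hu'
  calc ‖u‖⁻¹ * ‖(u - v) + (1 - ‖u‖ * ‖v‖⁻¹) • v‖ ≤ ‖u‖⁻¹ * (‖u - v‖ + ‖u - v‖) := by
        apply mul_le_mul_of_nonneg_left _ h3.le
        linarith
    _ = 2 * ‖u‖⁻¹ * ‖u - v‖ := by ring

variable {U : Type*} [NormedAddCommGroup U] [NormedSpace ℝ U]

/-- A parametrisation of `Ew w` by the real line. -/
structure CircleParam (w : U) (Ψ : ℝ → U) (L : ℝ) : Prop where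
  cont : Continuous Ψ
  mem : ∀ θ, Ψ θ ∈ Ew w
  shift : ∀ θ, Ψ (θ + Real.pi) = w - Ψ θ
  surj : ∀ s ∈ Ew w, ∃ θ, Ψ θ = s
  lip : ∀ x y, ‖eθ x - eθ y‖ ≤ L * ‖Ψ x - Ψ y‖

lemma exists_circleParam [FiniteDimensional ℝ U] [StrictConvexSpace ℝ U] {w : U} {p : U →L[ℝ] E2}
    (h : Proj w p) {ρ Λ : ℝ} (hρ : 0 < ρ) (hΛ : 0 ≤ Λ) (h1 : ∀ s ∈ Ew w, ρ ≤ ‖p s‖)
    (h2 : ∀ v, ‖p v‖ ≤ Λ * ‖v‖) : ∃ Ψ : ℝ → U, CircleParam w Ψ (2 * Λ / ρ) := by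
  obtain ⟨Θ, hΘ⟩ := Vale.Agent.Lib.P084.Dim3.Proj.exists_theta' h
  have hes : ∀ θ, eθ θ ∈ sphere (0 : E2) 1 := fun θ => by simpa using eθ_norm θ
  have hp0 : ∀ s ∈ Ew w, p s ≠ 0 := fun s hs => pi_ne_zero h.hw2 p h.ker hs
  -- the parametrisation
  let Ψ' : ℝ → Ew w := fun θ => Θ.symm ⟨eθ θ, hes θ⟩
  have hΘΨ : ∀ θ, ‖p (Ψ' θ : U)‖⁻¹ • p (Ψ' θ : U) = eθ θ := by
    intro θ
    rw [← hΘ (Ψ' θ)]
    simp [Ψ']
  refine ⟨fun θ => (Ψ' θ : U), ?_, fun θ => (Ψ' θ).2, ?_, ?_, ?_⟩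
  · refine continuous_subtype_val.comp (Θ.symm.continuous.comp ?_)
    exact Continuous.subtype_mk continuous_eθ _
  · -- the shift
    intro θ
    show ((Ψ' (θ + Real.pi)) : U) = w - Ψ' θ
    have hmem : w - (Ψ' θ : U) ∈ Ew w := Ew_rho (Ψ' θ).2
    have hval : (Θ ⟨w - (Ψ' θ : U), hmem⟩ : E2) = eθ (θ + Real.pi) := by
      rw [hΘ, eθ_add_pi, ← hΘΨ θ]
      simp only
      rw [map_sub, h.pi_w, zero_sub, norm_neg, smul_neg]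
    have h3 : Θ ⟨w - (Ψ' θ : U), hmem⟩ = ⟨eθ (θ + Real.pi), hes _⟩ := Subtype.ext hval
    have h4 : (⟨w - (Ψ' θ : U), hmem⟩ : Ew w) = Ψ' (θ + Real.pi) := by
      rw [← Θ.symm_apply_apply ⟨w - (Ψ' θ : U), hmem⟩, h3]
    rw [← h4]
  · -- surjectivity
    intro s hs
    obtain ⟨θ, hθ⟩ := eθ_surj (Θ ⟨s, hs⟩ : E2) (by simpa using (Θ ⟨s, hs⟩).2)
    refine ⟨θ, ?_⟩
    have h3 : (⟨eθ θ, hes θ⟩ : sphere (0 : E2) 1) = Θ ⟨s, hs⟩ := Subtype.ext hθ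
    show ((Θ.symm ⟨eθ θ, hes θ⟩ : Ew w) : U) = s
    rw [h3, Θ.symm_apply_apply]
  · -- the estimate
    intro x y
    rw [← hΘΨ x, ← hΘΨ y]
    have h3 := norm_normalize_sub (hp0 _ (Ψ' x).2) (hp0 _ (Ψ' y).2)
    refine h3.trans ?_
    have h4 : ρ ≤ ‖p (Ψ' x : U)‖ := h1 _ (Ψ' x).2
    have h5 : ‖p (Ψ' x : U) - p (Ψ' y : U)‖ ≤ Λ * ‖(Ψ' x : U) - Ψ' y‖ := by
      rw [← map_sub]
      exact h2 _
    have h6 : ‖p (Ψ' x : U)‖⁻¹ ≤ ρ⁻¹ := inv_anti₀ hρ h4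
    calc 2 * ‖p (Ψ' x : U)‖⁻¹ * ‖p (Ψ' x : U) - p (Ψ' y : U)‖
        ≤ 2 * ρ⁻¹ * (Λ * ‖(Ψ' x : U) - Ψ' y‖) := by
          have := inv_pos.2 hρ
          gcongr
      _ = 2 * Λ / ρ * ‖(Ψ' x : U) - Ψ' y‖ := by
          field_simp

/-- An eventual statement on `Ew w` from a statement near the points of `Ew w₀`. -/
lemma ev_on_Ew [FiniteDimensional ℝ U] {w₀ : U} {P : U → U → Prop}
    (hP : ∀ s₀ ∈ Ew w₀, ∀ᶠ z : U × U in 𝓝 (w₀, s₀), z.2 ∈ Ew z.1 → P z.1 z.2) :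
    ∀ᶠ w in 𝓝 w₀, ∀ s ∈ Ew w, P w s := by
  have : ProperSpace U := FiniteDimensional.proper_real U
  have hlocal : ∀ y₀ ∈ sphere (0 : U) 1, ∀ᶠ z : U × U in 𝓝 (w₀, y₀),
      z.2 ∈ Ew z.1 → P z.1 z.2 := by
    intro y₀ hy₀
    by_cases hE : y₀ ∈ Ew w₀
    · exact hP y₀ hE
    · have hy₀1 : ‖y₀‖ = 1 := by simpa using hy₀
      have hne : ‖y₀ - w₀‖ ≠ 1 := fun h => hE ⟨hy₀1, h⟩
      have hcont : ContinuousAt (fun z : U × U => ‖z.2 - z.1‖) (w₀, y₀) := by fun_prop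
      filter_upwards [hcont.eventually_ne hne] with z hz hzE
      exact absurd hzE.2 hz
  have hev := (isCompact_sphere (0 : U) 1).eventually_forall_of_forall_eventually
    (x₀ := w₀) (P := fun w s => s ∈ Ew w → P w s) hlocal
  filter_upwards [hev] with w hw s hs
  exact hw s (by simpa using hs.1) hs

/-- The projection along `w` built from the projection along `w₀`. -/
noncomputable def projW (π₀ : U →L[ℝ] E2) (ℓ : U →L[ℝ] ℝ) (w : U) : U →L[ℝ] E2 :=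
  π₀.comp (ContinuousLinearMap.id ℝ U - ((ℓ w)⁻¹ • ℓ).smulRight w)

lemma projW_apply (π₀ : U →L[ℝ] E2) (ℓ : U →L[ℝ] ℝ) (w v : U) :
    projW π₀ ℓ w v = π₀ (v - ((ℓ w)⁻¹ * ℓ v) • w) := by
  simp [projW]

lemma proj_projW [FiniteDimensional ℝ U] [StrictConvexSpace ℝ U] {π₀ : U →L[ℝ] E2}
    {ℓ : U →L[ℝ] ℝ} {w₀ w : U}
    (hker₀ : ∀ x, π₀ x = 0 ↔ ∃ a : ℝ, x = a • w₀) (hsurj₀ : Function.Surjective π₀)
    (hℓ : ℓ w₀ = 1) (hw : w ≠ 0) (hw2 : ‖w‖ < 2) (hℓw : ℓ w ≠ 0) : Proj w (projW π₀ ℓ w) := by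
  refine ⟨hw, hw2, fun x => ?_, fun t => ?_⟩
  · rw [projW_apply]
    constructor
    · intro h0
      obtain ⟨b, hb⟩ := (hker₀ _).1 h0
      have h1 := congrArg ℓ hb
      rw [map_sub, map_smul, map_smul, smul_eq_mul, smul_eq_mul, hℓ, mul_one] at h1
      have h2 : (ℓ w)⁻¹ * ℓ x * ℓ w = ℓ x := by field_simp
      rw [h2, sub_self] at h1
      rw [← h1, zero_smul] at hb
      exact ⟨(ℓ w)⁻¹ * ℓ x, sub_eq_zero.1 hb⟩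
    · rintro ⟨a, rfl⟩
      rw [map_smul, smul_eq_mul]
      have h2 : (ℓ w)⁻¹ * (a * ℓ w) = a := by field_simp
      rw [h2, sub_self, map_zero]
  · obtain ⟨v, hv⟩ := hsurj₀ t
    have hπw₀ : π₀ w₀ = 0 := (hker₀ w₀).2 ⟨1, by simp⟩
    refine ⟨v - ℓ v • w₀, ?_⟩
    rw [projW_apply]
    have h1 : ℓ (v - ℓ v • w₀) = 0 := by
      rw [map_sub, map_smul, smul_eq_mul, hℓ, mul_one, sub_self]
    rw [h1, mul_zero, zero_smul, sub_zero, map_sub, map_smul, hπw₀, smul_zero, sub_zero, hv]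

lemma norm_projW_le (π₀ : U →L[ℝ] E2) (ℓ : U →L[ℝ] ℝ) {w : U} (hℓw : 1 / 2 ≤ ℓ w) (hw2 : ‖w‖ < 2)
    (v : U) : ‖projW π₀ ℓ w v‖ ≤ (‖π₀‖ * (1 + 4 * ‖ℓ‖)) * ‖v‖ := by
  rw [projW_apply]
  refine (π₀.le_opNorm _).trans ?_
  rw [mul_assoc]
  apply mul_le_mul_of_nonneg_left _ (norm_nonneg _)
  refine (norm_sub_le _ _).trans ?_
  rw [norm_smul, Real.norm_eq_abs, abs_mul]
  have hpos : 0 < ℓ w := by linarith
  have h1 : |(ℓ w)⁻¹| ≤ 2 := by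
    rw [abs_of_pos (inv_pos.2 hpos)]
    rw [inv_le_comm₀ hpos (by norm_num)]
    norm_num
    linarith
  have h2 : |ℓ v| ≤ ‖ℓ‖ * ‖v‖ := ℓ.le_opNorm v
  have h3 : |(ℓ w)⁻¹| * |ℓ v| ≤ 2 * (‖ℓ‖ * ‖v‖) :=
    mul_le_mul h1 h2 (abs_nonneg _) (by norm_num)
  have h4 : |(ℓ w)⁻¹| * |ℓ v| * ‖w‖ ≤ 2 * (‖ℓ‖ * ‖v‖) * 2 :=
    mul_le_mul h3 hw2.le (norm_nonneg _) (by positivity)
  linarith

end Vale.Agent.Lib.P084.Dim3N
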