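import Vale.Agent.Lib.P084.Dim3.Wrap
import Vale.Agent.Lib.P084.Dim4.Wrap
import Vale.Agent.Lib.P084.Dim4.Strict
import Vale.Agent.Lib.P084.Dim3N.OpenNS

/-! The extension theorem for all strictly convex spaces of dimension at least three. -/

set_option linter.unusedSectionVars false

namespace Vale.Agent.Lib.P084.Dim3N

open Set Filter Topology Metric Vale.Agent.Lib.P084.Dim4 Vale.Agent.Lib.P084.Dim3

/-- All `w` of norm less than two are good, without smoothness. -/
theorem K_const_all_ns {U V : Type*} [NormedAddCommGroup U] [NormedSpace ℝ U] [NormedAddCommGroup V]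
    [NormedSpace ℝ V] [FiniteDimensional ℝ U] [StrictConvexSpace ℝ U] [FiniteDimensional ℝ V]
    [StrictConvexSpace ℝ V] {g : U → V} (hdimU : Module.finrank ℝ U = 3)
    (hdimV : Module.finrank ℝ V = 3) (hg : SphereIso g) {w : U} (hw2 : ‖w‖ < 2) : Good g w := by
  have hdimU' : 3 ≤ Module.finrank ℝ U := by omega
  by_cases hw : w = 0
  · subst hw
    intro s hs t ht
    have hs1 : ‖s‖ = 1 := hs.1
    have ht1 : ‖t‖ = 1 := ht.1
    rw [zero_sub, zero_sub, hg.odd hs1, hg.odd ht1]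
    simp
  have hn : 0 < ‖w‖ := norm_pos_iff.2 hw
  set x : U := ‖w‖⁻¹ • w with hx
  have hx1 : ‖x‖ = 1 := by simpa [hx] using norm_smul_inv_norm (𝕜 := ℝ) hw
  have hx0 : x ≠ 0 := by
    intro h
    rw [h, norm_zero] at hx1
    norm_num at hx1
  have hxw : ‖w‖ • x = w := by
    rw [hx, smul_smul, mul_inv_cancel₀ hn.ne', one_smul]
  set u : Set ℝ := {t | t ∈ Ioo (0 : ℝ) 2 ∧ Good g (t • x)} with hu
  have hnorm : ∀ t : ℝ, 0 < t → ‖t • x‖ = t := fun t ht => by
    rw [norm_smul, hx1, mul_one, Real.norm_of_nonneg ht.le]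
  have hne : ∀ t : ℝ, 0 < t → t • x ≠ 0 := fun t ht => smul_ne_zero ht.ne' hx0
  have huo : IsOpen u := by
    rw [isOpen_iff_mem_nhds]
    rintro t ⟨ht, hgt⟩
    have h1 := good_open_ns hdimU hdimV hg hgt (hne t ht.1) (by rw [hnorm t ht.1]; exact ht.2)
    have hc : ContinuousAt (fun t : ℝ => t • x) t := by fun_prop
    filter_upwards [hc.eventually h1, isOpen_Ioo.mem_nhds ht] with t' h2 h3
    exact ⟨h3, h2⟩
  have hone : (1 : ℝ) ∈ u := by
    refine ⟨⟨by norm_num, by norm_num⟩, ?_⟩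
    rw [one_smul]
    intro s hs t ht
    have h1 : g (s + (x - s)) = g s + g (x - s) :=
      SphereIso.add_eq hg hs.1 (Ew_rho hs).1 (by rw [add_sub_cancel]; exact hx1)
    have h2 : g (t + (x - t)) = g t + g (x - t) :=
      SphereIso.add_eq hg ht.1 (Ew_rho ht).1 (by rw [add_sub_cancel]; exact hx1)
    rw [add_sub_cancel] at h1 h2
    rw [← h1, ← h2]
  have hcl : closure u ∩ Ioo (0 : ℝ) 2 ⊆ u := by
    rintro t ⟨ht1, ht2⟩
    refine ⟨ht2, good_closed hdimU' hg (hne t ht2.1) (by rw [hnorm t ht2.1]; exact ht2.2) ?_⟩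
    have hc : Continuous (fun t : ℝ => t • x) := by fun_prop
    have h3 := map_mem_closure hc ht1 (t := {w | Good g w}) (fun t' ht' => ht'.2)
    exact h3
  have hsub := isPreconnected_Ioo.subset_of_closure_inter_subset huo
    ⟨1, ⟨by norm_num, by norm_num⟩, hone⟩ hcl
  have hmem := hsub (show ‖w‖ ∈ Ioo (0 : ℝ) 2 from ⟨hn, hw2⟩)
  have := hmem.2
  rwa [hxw] at this

/-- The core statement: source and target three dimensional, target strictly convex. -/
theorem core_ns {U V : Type*} [NormedAddCommGroup U] [NormedSpace ℝ U] [NormedAddCommGroup V]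
    [NormedSpace ℝ V] [FiniteDimensional ℝ U] [FiniteDimensional ℝ V] [StrictConvexSpace ℝ V]
    (hdimV : Module.finrank ℝ V = 3) (hdimU : Module.finrank ℝ U = 3) {g : U → V}
    (hg : SphereIso g) : ∃ T : U ≃ₗᵢ[ℝ] V, ∀ x, ‖x‖ = 1 → T x = g x := by
  have hSC : StrictConvexSpace ℝ U := hg.strictConvex
  obtain ⟨η, hη0, hη1, hη⟩ := exists_uc' (X := U)
  exact exists_linearIsometryEquiv
    (⟨hg, by omega, fun w hw s hs t ht => K_const_all_ns hdimU hdimV hg hw s hs t ht, hη0, hη1, hη⟩ :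
      Vale.Agent.Lib.P084.Dim3.Ctx g η)

/-- Every surjective isometry from the unit sphere of a three dimensional strictly convex space onto
the unit sphere of any real normed space extends to a linear isometry. -/
theorem sphere_isometry_dim3_ns {X Y : Type*} [NormedAddCommGroup X] [NormedSpace ℝ X]
    [FiniteDimensional ℝ X] [StrictConvexSpace ℝ X] [NormedAddCommGroup Y] [NormedSpace ℝ Y]
    (hdim : Module.finrank ℝ X = 3)
    (f : sphere (0 : X) 1 → sphere (0 : Y) 1) (hf : Isometry f) (hs : Function.Surjective f) :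
    ∃ T : X ≃ₗᵢ[ℝ] Y, ∀ x : sphere (0 : X) 1, T x = f x := by
  classical
  have hmemX : ∀ a : X, ‖a‖ = 1 → a ∈ sphere (0 : X) 1 := fun a ha => by simpa using ha
  have hmemY : ∀ y : Y, ‖y‖ = 1 → y ∈ sphere (0 : Y) 1 := fun y hy => by simpa using hy
  have hnormX : ∀ a : sphere (0 : X) 1, ‖(a : X)‖ = 1 := fun a => by simpa using a.2
  have hnormY : ∀ y : sphere (0 : Y) 1, ‖(y : Y)‖ = 1 := fun y => by simpa using y.2
  have hfdist : ∀ a b : sphere (0 : X) 1, ‖(f a : Y) - f b‖ = ‖(a : X) - b‖ := by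
    intro a b
    have := hf.dist_eq a b
    simpa [Subtype.dist_eq, dist_eq_norm] using this
  obtain ⟨inv, hinv⟩ : ∃ inv : sphere (0 : Y) 1 → sphere (0 : X) 1, ∀ y, f (inv y) = y :=
    hs.hasRightInverse
  set g : Y → X := fun a => if h : ‖a‖ = 1 then (inv ⟨a, hmemY a h⟩ : X) else 0 with hg
  have hgv : ∀ a (h : ‖a‖ = 1), g a = inv ⟨a, hmemY a h⟩ := fun a h => by simp [hg, h]
  have hinvl : ∀ a : sphere (0 : X) 1, inv (f a) = a := fun a => hf.injective (hinv _)
  have hG : SphereIso g := by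
    refine ⟨fun a ha => ?_, fun a b ha hb => ?_, fun y hy => ?_⟩
    · rw [hgv a ha]; exact hnormX _
    · rw [hgv a ha, hgv b hb, ← hfdist, hinv, hinv]
    · refine ⟨f ⟨y, hmemX y hy⟩, hnormY _, ?_⟩
      rw [hgv _ (hnormY _)]
      have : (⟨(f ⟨y, hmemX y hy⟩ : Y), hmemY _ (hnormY _)⟩ : sphere (0 : Y) 1)
          = f ⟨y, hmemX y hy⟩ := Subtype.ext rfl
      rw [this, hinvl]
  have hntX : Nontrivial X := by
    apply Module.nontrivial_of_finrank_pos (R := ℝ)
    omega
  obtain ⟨a₀, ha₀⟩ := exists_ne (0 : X)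
  have ha₀1 : ‖‖a₀‖⁻¹ • a₀‖ = 1 := by simpa using norm_smul_inv_norm (𝕜 := ℝ) ha₀
  set x₀ : sphere (0 : X) 1 := ⟨‖a₀‖⁻¹ • a₀, hmemX _ ha₀1⟩ with hx₀
  have hcY : IsCompact (sphere (0 : Y) 1) := by
    have : ProperSpace X := FiniteDimensional.proper_real X
    have hc : CompactSpace (sphere (0 : X) 1) :=
      isCompact_iff_compactSpace.1 (isCompact_sphere _ _)
    have himg : sphere (0 : Y) 1 = Set.range fun a : sphere (0 : X) 1 => (f a : Y) := by
      ext y
      constructor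
      · intro hy
        obtain ⟨a, ha⟩ := hs ⟨y, hy⟩
        exact ⟨a, by show (f a : Y) = y; rw [ha]⟩
      · rintro ⟨a, rfl⟩
        exact (f a).2
    rw [himg]
    exact isCompact_range (continuous_subtype_val.comp hf.continuous)
  have hFD : FiniteDimensional ℝ Y := finiteDimensional_of_sphere hcY (hnormY (f x₀))
  have hSC : StrictConvexSpace ℝ Y := hG.strictConvex
  -- the dimension of `Y`
  have hdimY : 3 ≤ Module.finrank ℝ Y := by
    obtain ⟨x₁, hx₁, x₂, hx₂, x₃, hx₃, h12, h13, h23⟩ := exists_three hdim (hnormX x₀)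
    have hmapE : ∀ p (hp : p ∈ Ew (x₀ : X)), (f ⟨p, hmemX p hp.1⟩ : Y) ∈ Ew (f x₀ : Y) :=
      fun p hp => ⟨hnormY _, by rw [hfdist]; exact hp.2⟩
    have hinj : ∀ p q (hp : ‖p‖ = 1) (hq : ‖q‖ = 1), p ≠ q →
        (f ⟨p, hmemX p hp⟩ : Y) ≠ (f ⟨q, hmemX q hq⟩ : Y) := by
      intro p q hp hq hne h
      have h1 := hfdist ⟨p, hmemX p hp⟩ ⟨q, hmemX q hq⟩
      rw [h, sub_self, norm_zero] at h1
      exact hne (sub_eq_zero.1 (norm_eq_zero.1 h1.symm))
    exact three_le_finrank (hnormY (f x₀)) (hmapE _ hx₁) (hmapE _ hx₂) (hmapE _ hx₃)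
      (hinj _ _ hx₁.1 hx₂.1 h12) (hinj _ _ hx₁.1 hx₃.1 h13) (hinj _ _ hx₂.1 hx₃.1 h23)
  have hdimY' : Module.finrank ℝ Y = 3 := by
    by_contra hne
    have h4 : 4 ≤ Module.finrank ℝ Y := by omega
    have hiso : Isometry inv := by
      refine Isometry.of_dist_eq fun a b => ?_
      have := hf.dist_eq (inv a) (inv b)
      rw [hinv, hinv] at this
      exact this.symm
    obtain ⟨T, -⟩ := sphere_isometry_dim4 h4 inv hiso
      (fun a => ⟨f a, hinvl a⟩)
    have := T.toLinearEquiv.finrank_eq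
    omega
  obtain ⟨T', hT'⟩ := core_ns hdim hdimY' hG
  refine ⟨T'.symm, fun x => ?_⟩
  rw [LinearIsometryEquiv.symm_apply_eq, hT' _ (hnormY _), hgv _ (hnormY _)]
  have : (⟨(f x : Y), hmemY _ (hnormY _)⟩ : sphere (0 : Y) 1) = f x := Subtype.ext rfl
  rw [this, hinvl]

/-- **Tingley's problem for strictly convex spaces.** Every surjective isometry from the unit sphere
of a strictly convex space of dimension at least three onto the unit sphere of any real normed
space extends to a linear isometry. -/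
theorem sphere_isometry_strict3 {X Y : Type*} [NormedAddCommGroup X] [NormedSpace ℝ X]
    [StrictConvexSpace ℝ X] [NormedAddCommGroup Y] [NormedSpace ℝ Y]
    (hrank : (3 : Cardinal) ≤ Module.rank ℝ X)
    (f : sphere (0 : X) 1 → sphere (0 : Y) 1) (hf : Isometry f) (hs : Function.Surjective f) :
    ∃ T : X ≃ₗᵢ[ℝ] Y, ∀ x : sphere (0 : X) 1, T x = f x := by
  by_cases h4 : (4 : Cardinal) ≤ Module.rank ℝ X
  · exact sphere_isometry_strict h4 f hf hs
  · push Not at h4
    have hlt : Module.rank ℝ X < Cardinal.aleph0 :=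
      lt_trans h4 (by exact_mod_cast Cardinal.natCast_lt_aleph0 (n := 4))
    have hfin : Module.Finite ℝ X := Module.rank_lt_aleph0_iff.1 hlt
    have he := Module.finrank_eq_rank ℝ X
    rw [← he] at hrank h4
    have h3 : 3 ≤ Module.finrank ℝ X := by exact_mod_cast hrank
    have h5 : Module.finrank ℝ X < 4 := by exact_mod_cast h4
    exact sphere_isometry_dim3_ns (by omega) f hf hs

end Vale.Agent.Lib.P084.Dim3N
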